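import Vale.Agent.FK.Defs

/-!
# P063: arithmetic of the parameters
-/

namespace Vale.Agent.FK

theorem exp_six : (256 : ℝ) ≤ Real.exp 6 := by
  have h := Real.exp_one_gt_d9
  have h6 : Real.exp 6 = Real.exp 1 ^ 6 := by
    rw [← Real.exp_nat_mul]; congr 1; norm_num
  rw [h6]
  have : (2.7 : ℝ) ≤ Real.exp 1 := by linarith
  calc (256 : ℝ) ≤ 2.7 ^ 6 := by norm_num
    _ ≤ Real.exp 1 ^ 6 := pow_le_pow_left₀ (by norm_num) this 6

theorem arith_exponent (r K v s : ℕ) (l β c1 : ℝ) (hr : 2 ≤ r) (hK : 1 ≤ K) (hv : 1 ≤ v)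
    (hl : 1 ≤ l) (hβ : 1 ≤ β)
    (hy : β * (v : ℝ) ^ (r - 1) ≤ c1 * l) (hc1 : (2 ^ (r + 1) * K + 8192) * c1 ≤ 1 / 4)
    (hc10 : 0 ≤ c1)
    (hsv : (s : ℝ) ≤ (2 * v) ^ r)
    (hll : 70 + 64 * Real.log K + 1091 * Real.log l ≤ l / 8) :
    6 + 2 * (K * s : ℝ) * β + (32 * ((v : ℝ) + 1)) * (Real.log K + 2 * Real.log l) - v * l / 2 ≤
      -((32 * ((v : ℝ) + 1)) * (1 + 15 * Real.log l + 2 * (32 * ((v : ℝ) + 1)) * β)
        + 3 * Real.log l) := by
  have hvR : (1 : ℝ) ≤ v := by exact_mod_cast hv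
  have hKR : (1 : ℝ) ≤ K := by exact_mod_cast hK
  have hlogK : 0 ≤ Real.log K := Real.log_nonneg hKR
  have hlogl : 0 ≤ Real.log l := Real.log_nonneg hl
  set d : ℝ := 32 * ((v : ℝ) + 1) with hd
  have hd64 : d ≤ 64 * v := by rw [hd]; linarith
  have hd0 : 0 ≤ d := by rw [hd]; positivity
  have hpow : (v : ℝ) ^ r = v * (v : ℝ) ^ (r - 1) := by
    conv_lhs => rw [show r = (r - 1) + 1 by omega]
    rw [pow_succ]; ring
  have hvle : (v : ℝ) ≤ (v : ℝ) ^ (r - 1) := by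
    calc (v : ℝ) = (v : ℝ) ^ 1 := by ring
      _ ≤ (v : ℝ) ^ (r - 1) := pow_le_pow_right₀ hvR (by omega)
  have t1 : 2 * (K * s : ℝ) * β ≤ 2 ^ (r + 1) * K * v * (c1 * l) := by
    calc 2 * (K * s : ℝ) * β ≤ 2 * (K * (2 * v) ^ r) * β := by gcongr
      _ = 2 ^ (r + 1) * K * v * (β * (v : ℝ) ^ (r - 1)) := by
          rw [mul_pow, hpow, pow_succ]; ring
      _ ≤ _ := by gcongr
  have t2 : 2 * d * d * β ≤ 8192 * v * (c1 * l) := by
    calc 2 * d * d * β ≤ 2 * (64 * v) * (64 * v) * β := by gcongr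
      _ = 8192 * v * (β * v) := by ring
      _ ≤ 8192 * v * (β * (v : ℝ) ^ (r - 1)) := by gcongr
      _ ≤ _ := by gcongr
  have t3 : 2 ^ (r + 1) * K * v * (c1 * l) + 8192 * v * (c1 * l) ≤ v * l / 4 := by
    have : 0 ≤ (v : ℝ) * l := by positivity
    nlinarith
  have t4 : d * (Real.log K + 2 * Real.log l) ≤ 64 * v * (Real.log K + 2 * Real.log l) :=
    mul_le_mul_of_nonneg_right hd64 (by positivity)
  have t5 : d * (1 + 15 * Real.log l) ≤ 64 * v * (1 + 15 * Real.log l) :=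
    mul_le_mul_of_nonneg_right hd64 (by positivity)
  have t6 : (6 : ℝ) ≤ 6 * v := by linarith
  have t7 : 3 * Real.log l ≤ 3 * Real.log l * v := by nlinarith
  have t8 : (v : ℝ) * (70 + 64 * Real.log K + 1091 * Real.log l) ≤ v * (l / 8) :=
    mul_le_mul_of_nonneg_left hll (by positivity)
  have t9 : 0 ≤ (v : ℝ) * l := by positivity
  nlinarith

/-- condition on `θ` -/
theorem arith_cond (r K v s : ℕ) (l β c1 b : ℝ) (hr : 2 ≤ r) (hK : 1 ≤ K) (hv : 1 ≤ v)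
    (hs : 1 ≤ s) (hl : 1 ≤ l) (hβ : 1 ≤ β) (hb : b = Real.exp β)
    (hy : β * (v : ℝ) ^ (r - 1) ≤ c1 * l) (hc1 : (2 ^ (r + 1) * K + 8192) * c1 ≤ 1 / 4)
    (hc10 : 0 ≤ c1)
    (hsv : (s : ℝ) ≤ (2 * v) ^ r) (hsl : (s : ℝ) ≤ l ^ 2)
    (hll : 70 + 64 * Real.log K + 1091 * Real.log l ≤ l / 8) :
    256 * b ^ (2 * (K * s)) *
      (((K * s : ℕ) : ℝ) ^ (32 * (v + 1)) * Real.exp (-(v * l / 2))) ≤
      (Real.exp (-(((32 * ((v : ℝ) + 1)) *
        (1 + 15 * Real.log l + 2 * (32 * ((v : ℝ) + 1)) * β) + 3 * Real.log l) / 2))) ^ 2 := by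
  have hexp := arith_exponent r K v s l β c1 hr hK hv hl hβ hy hc1 hc10 hsv hll
  have hKR : (1 : ℝ) ≤ K := by exact_mod_cast hK
  have hsR : (1 : ℝ) ≤ s := by exact_mod_cast hs
  have hl0 : 0 < l := by linarith
  have hK0 : (0 : ℝ) < K := by linarith
  have e1 : b ^ (2 * (K * s)) = Real.exp (2 * (K * s : ℝ) * β) := by
    rw [hb, ← Real.exp_nat_mul]
    congr 1; push_cast; ring
  have e2 : ((K * s : ℕ) : ℝ) ^ (32 * (v + 1)) ≤
      Real.exp ((32 * ((v : ℝ) + 1)) * (Real.log K + 2 * Real.log l)) := by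
    have h1 : ((K * s : ℕ) : ℝ) ≤ Real.exp (Real.log K + 2 * Real.log l) := by
      rw [Real.exp_add, Real.exp_log hK0]
      have h2 : Real.exp (2 * Real.log l) = l ^ 2 := by
        rw [two_mul, Real.exp_add, Real.exp_log hl0]; ring
      rw [h2]
      push_cast
      exact mul_le_mul_of_nonneg_left hsl hK0.le
    calc ((K * s : ℕ) : ℝ) ^ (32 * (v + 1))
        ≤ (Real.exp (Real.log K + 2 * Real.log l)) ^ (32 * (v + 1)) :=
          pow_le_pow_left₀ (Nat.cast_nonneg _) h1 _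
      _ = _ := by
          rw [← Real.exp_nat_mul]; congr 1; push_cast; ring
  have e3 : (Real.exp (-(((32 * ((v : ℝ) + 1)) *
        (1 + 15 * Real.log l + 2 * (32 * ((v : ℝ) + 1)) * β) + 3 * Real.log l) / 2))) ^ 2 =
      Real.exp (-((32 * ((v : ℝ) + 1)) * (1 + 15 * Real.log l + 2 * (32 * ((v : ℝ) + 1)) * β)
        + 3 * Real.log l)) := by
    rw [← Real.exp_nat_mul]; congr 1; push_cast; ring
  rw [e3, e1]
  calc 256 * Real.exp (2 * (K * s : ℝ) * β) *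
      (((K * s : ℕ) : ℝ) ^ (32 * (v + 1)) * Real.exp (-(v * l / 2)))
      ≤ Real.exp 6 * Real.exp (2 * (K * s : ℝ) * β) *
        (Real.exp ((32 * ((v : ℝ) + 1)) * (Real.log K + 2 * Real.log l)) *
          Real.exp (-(v * l / 2))) := by
        have := exp_six
        gcongr
    _ = Real.exp (6 + 2 * (K * s : ℝ) * β +
          (32 * ((v : ℝ) + 1)) * (Real.log K + 2 * Real.log l) - v * l / 2) := by
        rw [← Real.exp_add, ← Real.exp_add, ← Real.exp_add]; congr 1; ring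
    _ ≤ _ := Real.exp_le_exp.2 hexp

/-- the error term -/
theorem arith_err (v : ℕ) (l β b I : ℝ) (hl : 1 ≤ l) (hβ : 1 ≤ β) (hb : b = Real.exp β)
    (hI0 : 0 ≤ I) (hI : I ≤ l ^ 2) :
    b ^ (32 * (v + 1)) * (Real.exp (-((32 * ((v : ℝ) + 1)) * β)) / l ^ 5) * I +
      (Real.exp (-(((32 * ((v : ℝ) + 1)) *
        (1 + 15 * Real.log l + 2 * (32 * ((v : ℝ) + 1)) * β) + 3 * Real.log l) / 2))) ^ 2 *
        (l ^ 5 / (Real.exp (-((32 * ((v : ℝ) + 1)) * β)) / l ^ 5) ^ 2 + 1) ^ (32 * (v + 1)) +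
      I / l ^ 5 ≤ 3 / l ^ 3 := by
  set d : ℝ := 32 * ((v : ℝ) + 1) with hd
  have hd0 : 0 ≤ d := by rw [hd]; positivity
  have hl0 : 0 < l := by linarith
  have hlogl : 0 ≤ Real.log l := Real.log_nonneg hl
  have hI5 : I / l ^ 5 ≤ 1 / l ^ 3 := by
    rw [div_le_div_iff₀ (by positivity) (by positivity)]
    have : I * l ^ 3 ≤ l ^ 2 * l ^ 3 := mul_le_mul_of_nonneg_right hI (by positivity)
    calc I * l ^ 3 ≤ l ^ 2 * l ^ 3 := this
      _ = 1 * l ^ 5 := by ring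
  have e1 : b ^ (32 * (v + 1)) = Real.exp (d * β) := by
    rw [hb, ← Real.exp_nat_mul]
    congr 1; push_cast; rw [hd]
  have h1 : b ^ (32 * (v + 1)) * (Real.exp (-(d * β)) / l ^ 5) * I ≤ 1 / l ^ 3 := by
    rw [e1]
    have : Real.exp (d * β) * (Real.exp (-(d * β)) / l ^ 5) * I = I / l ^ 5 := by
      rw [← mul_div_assoc, ← Real.exp_add, add_neg_cancel, Real.exp_zero]
      ring
    rw [this]; exact hI5
  have h2 : l ^ 5 / (Real.exp (-(d * β)) / l ^ 5) ^ 2 + 1 ≤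
      Real.exp (1 + 15 * Real.log l + 2 * d * β) := by
    have e2 : l ^ 5 / (Real.exp (-(d * β)) / l ^ 5) ^ 2 = l ^ 15 * Real.exp (2 * d * β) := by
      rw [div_pow, ← Real.exp_nat_mul]
      have : Real.exp (2 * d * β) = (Real.exp (((2 : ℕ) : ℝ) * (-(d * β))))⁻¹ := by
        rw [← Real.exp_neg]; congr 1; push_cast; ring
      rw [this]
      have hne : Real.exp (((2 : ℕ) : ℝ) * (-(d * β))) ≠ 0 := (Real.exp_pos _).ne'
      field_simp
    have e3 : Real.exp (15 * Real.log l) = l ^ 15 := by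
      have : (15 : ℝ) * Real.log l = ((15 : ℕ) : ℝ) * Real.log l := by norm_num
      rw [this, Real.exp_nat_mul, Real.exp_log hl0]
    have h3 : 1 ≤ l ^ 15 * Real.exp (2 * d * β) := by
      have h4 : 1 ≤ l ^ 15 := one_le_pow₀ hl
      have h5 : 1 ≤ Real.exp (2 * d * β) := Real.one_le_exp (by positivity)
      nlinarith
    rw [e2]
    calc l ^ 15 * Real.exp (2 * d * β) + 1
        ≤ 2 * (l ^ 15 * Real.exp (2 * d * β)) := by linarith
      _ ≤ Real.exp 1 * (l ^ 15 * Real.exp (2 * d * β)) := by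
          have : (2 : ℝ) ≤ Real.exp 1 := by linarith [Real.exp_one_gt_d9]
          exact mul_le_mul_of_nonneg_right this (by positivity)
      _ = _ := by
          rw [← e3, ← Real.exp_add, ← Real.exp_add]; congr 1; ring
  have h3 : (Real.exp (-((d * (1 + 15 * Real.log l + 2 * d * β) + 3 * Real.log l) / 2))) ^ 2 *
        (l ^ 5 / (Real.exp (-(d * β)) / l ^ 5) ^ 2 + 1) ^ (32 * (v + 1)) ≤ 1 / l ^ 3 := by
    calc (Real.exp (-((d * (1 + 15 * Real.log l + 2 * d * β) + 3 * Real.log l) / 2))) ^ 2 *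
        (l ^ 5 / (Real.exp (-(d * β)) / l ^ 5) ^ 2 + 1) ^ (32 * (v + 1))
        ≤ (Real.exp (-((d * (1 + 15 * Real.log l + 2 * d * β) + 3 * Real.log l) / 2))) ^ 2 *
          (Real.exp (1 + 15 * Real.log l + 2 * d * β)) ^ (32 * (v + 1)) := by
          refine mul_le_mul_of_nonneg_left (pow_le_pow_left₀ (by positivity) h2 _) (sq_nonneg _)
      _ = Real.exp (-(3 * Real.log l)) := by
          rw [← Real.exp_nat_mul, ← Real.exp_nat_mul, ← Real.exp_add]
          congr 1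
          have : ((32 * (v + 1) : ℕ) : ℝ) = d := by rw [hd]; push_cast; ring
          rw [this]
          push_cast
          ring
      _ = 1 / l ^ 3 := by
          rw [Real.exp_neg]
          have : (3 : ℝ) * Real.log l = ((3 : ℕ) : ℝ) * Real.log l := by norm_num
          rw [this, Real.exp_nat_mul, Real.exp_log hl0, one_div]
  have h4 : (3 : ℝ) / l ^ 3 = 1 / l ^ 3 + 1 / l ^ 3 + 1 / l ^ 3 := by ring
  rw [h4]
  exact add_le_add (add_le_add h1 h3) hI5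

/-- the tail term -/
theorem arith_tail (r K v s : ℕ) (η M : ℝ) (hr : 1 ≤ r) (hs : 1 ≤ s) (hv : 1 ≤ v)
    (hη : 0 < η) (hM : 128 / η ≤ Real.exp M)
    (hM0 : 0 ≤ M)
    (hK : 4 * (23 + (r : ℝ) + M) ≤ K) (hvs : v ^ r ≤ s) (hsv : s < (v + 1) ^ r) :
    2 ^ (32 * (v + 1)) * (1 - min 1 (4 * ((v : ℝ) + 1) / s) / 2) ^ (K * s) ≤ η / (128 * s) := by
  have hvR : (1 : ℝ) ≤ v := by exact_mod_cast hv
  have hsR : (1 : ℝ) ≤ s := by exact_mod_cast hs
  have hs0 : (0 : ℝ) < s := by linarith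
  have hrR : (1 : ℝ) ≤ r := by exact_mod_cast hr
  have hK0 : (0 : ℝ) ≤ K := Nat.cast_nonneg _
  set ρ := min 1 (4 * ((v : ℝ) + 1) / s) with hρ
  have hρ0 : 0 ≤ ρ := le_min zero_le_one (by positivity)
  have hρ1 : ρ ≤ 1 := min_le_left _ _
  have hvle : v ≤ s := le_trans (Nat.le_self_pow (by omega) v) hvs
  have hvsR : (v : ℝ) ≤ s := by exact_mod_cast hvle
  -- `ρ s ≥ (v+1)/2`
  have hρs : ((v : ℝ) + 1) / 2 ≤ ρ * s := by
    rw [hρ]
    rcases le_total 1 (4 * ((v : ℝ) + 1) / s) with h | h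
    · rw [min_eq_left h]; linarith
    · rw [min_eq_right h, div_mul_cancel₀ _ hs0.ne']; linarith
  have h1 : (1 - ρ / 2) ^ (K * s) ≤ Real.exp (-(K * ((v + 1) / 4 : ℝ))) := by
    have h2 : 1 - ρ / 2 ≤ Real.exp (-(ρ / 2)) := by
      have := Real.add_one_le_exp (-(ρ / 2))
      linarith
    calc (1 - ρ / 2) ^ (K * s) ≤ (Real.exp (-(ρ / 2))) ^ (K * s) :=
          pow_le_pow_left₀ (by linarith) h2 _
      _ = Real.exp (-(K * (ρ * s / 2))) := by
          rw [← Real.exp_nat_mul]; congr 1; push_cast; ring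
      _ ≤ _ := by
          apply Real.exp_le_exp.2
          have : (K : ℝ) * ((v + 1) / 4) ≤ K * (ρ * s / 2) :=
            mul_le_mul_of_nonneg_left (by linarith) hK0
          linarith
  have h2 : (2 : ℝ) ^ (32 * (v + 1)) ≤ Real.exp (23 * ((v : ℝ) + 1)) := by
    have hlog2 : Real.log 2 < 0.6931471808 := Real.log_two_lt_d9
    have : (2 : ℝ) ^ (32 * (v + 1)) = Real.exp ((32 * ((v : ℝ) + 1)) * Real.log 2) := by
      have h3 : (32 * ((v : ℝ) + 1)) * Real.log 2 = ((32 * (v + 1) : ℕ) : ℝ) * Real.log 2 := by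
        push_cast; ring
      rw [h3, Real.exp_nat_mul, Real.exp_log (by norm_num)]
    rw [this]
    apply Real.exp_le_exp.2
    nlinarith
  have h3 : (s : ℝ) ≤ Real.exp (r * ((v : ℝ) + 1)) := by
    have h4 : (s : ℝ) ≤ ((v : ℝ) + 1) ^ r := by exact_mod_cast hsv.le
    have h5 : (v : ℝ) + 1 ≤ Real.exp ((v : ℝ) + 1) := by
      have := Real.add_one_le_exp ((v : ℝ) + 1)
      linarith
    calc (s : ℝ) ≤ ((v : ℝ) + 1) ^ r := h4
      _ ≤ (Real.exp ((v : ℝ) + 1)) ^ r := pow_le_pow_left₀ (by positivity) h5 _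
      _ = _ := by rw [← Real.exp_nat_mul]
  rw [le_div_iff₀ (by positivity)]
  calc 2 ^ (32 * (v + 1)) * (1 - ρ / 2) ^ (K * s) * (128 * s)
      ≤ Real.exp (23 * ((v : ℝ) + 1)) * Real.exp (-(K * ((v + 1) / 4 : ℝ))) *
        (128 * Real.exp (r * ((v : ℝ) + 1))) := by
        have h6 : 0 ≤ (1 - ρ / 2) ^ (K * s) := pow_nonneg (by linarith) _
        gcongr
    _ = 128 * Real.exp (((v : ℝ) + 1) * (23 + r - K / 4)) := by
        have : Real.exp (23 * ((v : ℝ) + 1)) * Real.exp (-(K * ((v + 1) / 4 : ℝ))) *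
          (128 * Real.exp (r * ((v : ℝ) + 1))) = 128 * (Real.exp (23 * ((v : ℝ) + 1)) *
          Real.exp (-(K * ((v + 1) / 4 : ℝ))) * Real.exp (r * ((v : ℝ) + 1))) := by ring
        rw [this, ← Real.exp_add, ← Real.exp_add]
        congr 2; ring
    _ ≤ 128 * Real.exp (-M) := by
        have h7 : ((v : ℝ) + 1) * (23 + r - K / 4) ≤ -M := by
          have h8 : 23 + (r : ℝ) - K / 4 ≤ -M := by linarith
          nlinarith
        have := Real.exp_le_exp.2 h7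
        linarith
    _ ≤ η := by
        rw [Real.exp_neg, ← div_eq_mul_inv, div_le_iff₀ (Real.exp_pos _)]
        rw [div_le_iff₀ hη] at hM
        linarith

end Vale.Agent.FK
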