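import Vale.Agent.FK.Defs

/-!
# P063: basic facts about product Bernoulli measures and characters
-/

namespace Vale.Agent.FK

open Finset

variable {E : Type} [Fintype E] [DecidableEq E]

@[simp] theorem bw_true (p : ℝ) : bw p true = p := by simp [bw]
@[simp] theorem bw_false (p : ℝ) : bw p false = 1 - p := by simp [bw]

theorem sum_bw (p : ℝ) : ∑ b, bw p b = 1 := by
  rw [Fintype.sum_bool]; simp

theorem bw_nonneg {p : ℝ} (h0 : 0 ≤ p) (h1 : p ≤ 1) (b : Bool) : 0 ≤ bw p b := by
  cases b
  · simp; linarith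
  · simpa using h0

omit [DecidableEq E] in
theorem wt_nonneg {p : ℝ} (h0 : 0 ≤ p) (h1 : p ≤ 1) (x : E → Bool) : 0 ≤ wt p x :=
  Finset.prod_nonneg fun _ _ => bw_nonneg h0 h1 _

theorem ex_prod (p : ℝ) (G : E → Bool → ℝ) :
    ex p (fun x => ∏ e, G e (x e)) = ∏ e, ∑ b, bw p b * G e b := by
  unfold ex wt
  simp_rw [← Finset.prod_mul_distrib]
  rw [Finset.prod_univ_sum, Fintype.piFinset_univ]

theorem ex_const (p : ℝ) (c : ℝ) : ex p (fun _ : E → Bool => c) = c := by
  have h := ex_prod (E := E) p (fun _ _ => 1)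
  simp only [Finset.prod_const_one, mul_one, sum_bw] at h
  unfold ex at h ⊢
  simp only [mul_one] at h
  rw [← Finset.sum_mul, h, one_mul]

theorem ex_add (p : ℝ) (f g : (E → Bool) → ℝ) :
    ex p (fun x => f x + g x) = ex p f + ex p g := by
  unfold ex
  rw [← Finset.sum_add_distrib]
  exact Finset.sum_congr rfl fun x _ => by ring

theorem ex_sub (p : ℝ) (f g : (E → Bool) → ℝ) :
    ex p (fun x => f x - g x) = ex p f - ex p g := by
  unfold ex
  rw [← Finset.sum_sub_distrib]
  exact Finset.sum_congr rfl fun x _ => by ring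

theorem ex_mul_left (p : ℝ) (c : ℝ) (f : (E → Bool) → ℝ) :
    ex p (fun x => c * f x) = c * ex p f := by
  unfold ex
  rw [Finset.mul_sum]
  exact Finset.sum_congr rfl fun x _ => by ring

theorem ex_mul_right (p : ℝ) (c : ℝ) (f : (E → Bool) → ℝ) :
    ex p (fun x => f x * c) = ex p f * c := by
  unfold ex
  rw [Finset.sum_mul]
  exact Finset.sum_congr rfl fun x _ => by ring

theorem ex_sum {ι : Type*} (p : ℝ) (s : Finset ι) (f : ι → (E → Bool) → ℝ) :
    ex p (fun x => ∑ i ∈ s, f i x) = ∑ i ∈ s, ex p (f i) := by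
  unfold ex
  rw [Finset.sum_comm]
  exact Finset.sum_congr rfl fun x _ => by rw [Finset.mul_sum]

theorem ex_mono {p : ℝ} (h0 : 0 ≤ p) (h1 : p ≤ 1) {f g : (E → Bool) → ℝ}
    (h : ∀ x, f x ≤ g x) : ex p f ≤ ex p g :=
  Finset.sum_le_sum fun x _ => mul_le_mul_of_nonneg_left (h x) (wt_nonneg h0 h1 x)

theorem ex_nonneg {p : ℝ} (h0 : 0 ≤ p) (h1 : p ≤ 1) {f : (E → Bool) → ℝ}
    (h : ∀ x, 0 ≤ f x) : 0 ≤ ex p f :=
  Finset.sum_nonneg fun x _ => mul_nonneg (wt_nonneg h0 h1 x) (h x)

theorem ex_congr (p : ℝ) {f g : (E → Bool) → ℝ} (h : ∀ x, f x = g x) : ex p f = ex p g := by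
  unfold ex
  exact Finset.sum_congr rfl fun x _ => by rw [h x]

/-- the weight after resampling one coordinate -/
theorem wt_update (p : ℝ) (e : E) (x : E → Bool) (b : Bool) :
    wt p x * bw p b = wt p (Function.update x e b) * bw p (x e) := by
  unfold wt
  rw [← Finset.mul_prod_erase univ (fun e' => bw p (x e')) (Finset.mem_univ e),
    ← Finset.mul_prod_erase univ (fun e' => bw p (Function.update x e b e')) (Finset.mem_univ e)]
  have h : ∏ e' ∈ univ.erase e, bw p (Function.update x e b e') =
      ∏ e' ∈ univ.erase e, bw p (x e') := by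
    refine Finset.prod_congr rfl fun e' he' => ?_
    rw [Function.update_of_ne (Finset.ne_of_mem_erase he')]
  rw [h, Function.update_self]
  ring

/-- resampling one coordinate does not change the expectation -/
theorem ex_resample (p : ℝ) (e : E) (f : (E → Bool) → ℝ) :
    ex p (fun x => ∑ b, bw p b * f (Function.update x e b)) = ex p f := by
  have h1 : ex p (fun x => ∑ b, bw p b * f (Function.update x e b)) =
      ∑ z : (E → Bool) × Bool, wt p z.1 * bw p z.2 * f (Function.update z.1 e z.2) := by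
    rw [Fintype.sum_prod_type]
    unfold ex
    refine Finset.sum_congr rfl fun x _ => ?_
    rw [Finset.mul_sum]
    exact Finset.sum_congr rfl fun b _ => by ring
  have h2 : ex p f = ∑ z : (E → Bool) × Bool, wt p z.1 * bw p z.2 * f z.1 := by
    rw [Fintype.sum_prod_type]
    unfold ex
    refine Finset.sum_congr rfl fun x _ => ?_
    have : ∀ b, wt p x * bw p b * f x = bw p b * (wt p x * f x) := fun b => by ring
    simp only [this]
    rw [← Finset.sum_mul, sum_bw, one_mul]
  rw [h1, h2]
  let φ : (E → Bool) × Bool → (E → Bool) × Bool := fun z => (Function.update z.1 e z.2, z.1 e)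
  have hφ : Function.Involutive φ := by
    intro z
    ext e'
    · by_cases h : e' = e
      · subst h; simp [φ]
      · simp [φ, Function.update_of_ne h]
    · simp [φ]
  refine Fintype.sum_equiv hφ.toPerm _ _ fun z => ?_
  change _ = wt p (Function.update z.1 e z.2) * bw p (z.1 e) * f (Function.update z.1 e z.2)
  rw [← wt_update]

/-- independence -/
theorem ex_indep (p : ℝ) (e : E) (F : (E → Bool) → ℝ) (G : Bool → ℝ)
    (hF : ∀ x b, F (Function.update x e b) = F x) :
    ex p (fun x => F x * G (x e)) = ex p F * ∑ b, bw p b * G b := by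
  rw [← ex_resample p e, ← ex_mul_right]
  refine ex_congr p fun x => ?_
  simp only [hF, Function.update_self]
  rw [Finset.mul_sum]
  exact Finset.sum_congr rfl fun b _ => by ring

/-! ### one bit -/

theorem sg_pos {p : ℝ} (h0 : 0 < p) (h1 : p < 1) : 0 < Real.sqrt (p * (1 - p)) :=
  Real.sqrt_pos.2 (mul_pos h0 (by linarith))

theorem sg_sq {p : ℝ} (h0 : 0 < p) (h1 : p < 1) : Real.sqrt (p * (1 - p)) ^ 2 = p * (1 - p) :=
  Real.sq_sqrt (mul_nonneg h0.le (by linarith))

theorem sg_le {p : ℝ} : Real.sqrt (p * (1 - p)) ≤ 1 / 2 := by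
  rw [Real.sqrt_le_left (by norm_num)]
  nlinarith [sq_nonneg (p - 1 / 2)]

theorem bb_ge {p : ℝ} (h0 : 0 < p) (h1 : p < 1) : 4 ≤ bb p := by
  unfold bb
  rw [le_div_iff₀ (sg_pos h0 h1)]
  linarith [sg_le (p := p)]

theorem bb_sq {p : ℝ} (h0 : 0 < p) (h1 : p < 1) : bb p ^ 2 = 4 / (p * (1 - p)) := by
  unfold bb
  rw [div_pow, sg_sq h0 h1]; norm_num

theorem ch_true (p : ℝ) : ch p true = (1 - p) / Real.sqrt (p * (1 - p)) := by simp [ch]
theorem ch_false (p : ℝ) : ch p false = -p / Real.sqrt (p * (1 - p)) := by simp [ch]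

theorem sum_ch {p : ℝ} : ∑ b, bw p b * ch p b = 0 := by
  rw [Fintype.sum_bool, ch_true, ch_false]; simp; ring

theorem sum_ch2 {p : ℝ} (h0 : 0 < p) (h1 : p < 1) : ∑ b, bw p b * (ch p b) ^ 2 = 1 := by
  rw [Fintype.sum_bool, ch_true, ch_false, div_pow, div_pow, sg_sq h0 h1]
  have : 1 - p ≠ 0 := by linarith
  simp
  field_simp
  ring

theorem ch_diff {p : ℝ} : ch p true - ch p false = 1 / Real.sqrt (p * (1 - p)) := by
  rw [ch_true, ch_false]; ring

/-- third moment -/
theorem sum_ch3 {p : ℝ} (h0 : 0 < p) (h1 : p < 1) :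
    (∑ b, bw p b * (ch p b) ^ 3) ^ 2 ≤ 1 / (p * (1 - p)) := by
  have hs := sg_sq h0 h1
  have hpos := sg_pos h0 h1
  have hpq : 0 < p * (1 - p) := mul_pos h0 (by linarith)
  have e : ∑ b, bw p b * (ch p b) ^ 3 = (1 - 2 * p) / Real.sqrt (p * (1 - p)) := by
    rw [Fintype.sum_bool, ch_true, ch_false, bw_true, bw_false]
    have h3 : Real.sqrt (p * (1 - p)) ^ 3 = p * (1 - p) * Real.sqrt (p * (1 - p)) := by
      rw [pow_succ, hs]
    have h1' : 1 - p ≠ 0 := by linarith
    rw [div_pow, div_pow, h3]
    field_simp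
    ring
  rw [e, div_pow, hs]
  apply div_le_div_of_nonneg_right _ hpq.le
  nlinarith

/-- fourth moment -/
theorem sum_ch4 {p : ℝ} (h0 : 0 < p) (h1 : p < 1) :
    ∑ b, bw p b * (ch p b) ^ 4 ≤ 1 / (p * (1 - p)) := by
  have hs := sg_sq h0 h1
  have hpq : 0 < p * (1 - p) := mul_pos h0 (by linarith)
  have e : ∑ b, bw p b * (ch p b) ^ 4 = (1 - 3 * (p * (1 - p))) / (p * (1 - p)) := by
    rw [Fintype.sum_bool, ch_true, ch_false, bw_true, bw_false]
    have h4 : Real.sqrt (p * (1 - p)) ^ 4 = (p * (1 - p)) ^ 2 := by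
      rw [show (4 : ℕ) = 2 * 2 from rfl, pow_mul, hs]
    rw [div_pow, div_pow, h4]
    field_simp
    ring
  rw [e]
  apply div_le_div_of_nonneg_right _ hpq.le
  linarith

/-! ### characters -/

theorem chi_eq_prod (p : ℝ) (S : Finset E) (x : E → Bool) :
    chi p S x = ∏ e, if e ∈ S then ch p (x e) else 1 := by
  unfold chi
  rw [Finset.prod_ite_mem, Finset.univ_inter]

theorem ex_chi_mul_chi {p : ℝ} (h0 : 0 < p) (h1 : p < 1) (S T : Finset E) :
    ex p (fun x => chi p S x * chi p T x) = if S = T then 1 else 0 := by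
  have h : ∀ x : E → Bool, chi p S x * chi p T x =
      ∏ e, ((if e ∈ S then ch p (x e) else 1) * (if e ∈ T then ch p (x e) else 1)) := by
    intro x
    rw [chi_eq_prod, chi_eq_prod, ← Finset.prod_mul_distrib]
  rw [ex_congr p h,
    ex_prod p (fun e b => (if e ∈ S then ch p b else 1) * (if e ∈ T then ch p b else 1))]
  split_ifs with hST
  · subst hST
    refine Finset.prod_eq_one fun e _ => ?_
    by_cases he : e ∈ S
    · simp only [he, if_true]
      rw [← sum_ch2 h0 h1]
      exact Finset.sum_congr rfl fun b _ => by ring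
    · simp only [he, if_false, mul_one]
      exact sum_bw p
  · have : ∃ e, ¬ (e ∈ S ↔ e ∈ T) := by
      by_contra hcon
      push Not at hcon
      exact hST (Finset.ext hcon)
    obtain ⟨e, he⟩ := this
    refine Finset.prod_eq_zero (Finset.mem_univ e) ?_
    by_cases heS : e ∈ S
    · have heT : e ∉ T := fun h' => he ⟨fun _ => h', fun _ => heS⟩
      simp only [heS, heT, if_true, if_false, mul_one]
      exact sum_ch
    · have heT : e ∈ T := by
        by_contra h'
        exact he ⟨fun h'' => absurd h'' heS, fun h'' => absurd h'' h'⟩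
      simp only [heS, heT, if_true, if_false, one_mul]
      exact sum_ch

theorem one_add_ch_mul {p : ℝ} (h0 : 0 < p) (h1 : p < 1) (a b : Bool) :
    bw p a * (1 + ch p a * ch p b) = if a = b then 1 else 0 := by
  have hs := sg_sq h0 h1
  have hpos := sg_pos h0 h1
  have h1' : 1 - p ≠ 0 := by linarith
  have h0' : p ≠ 0 := h0.ne'
  have key : ∀ u v : ℝ, u / Real.sqrt (p * (1 - p)) * (v / Real.sqrt (p * (1 - p))) =
      u * v / (p * (1 - p)) := by
    intro u v
    rw [div_mul_div_comm, ← pow_two, hs]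
  cases a <;> cases b <;> simp only [bw_true, bw_false, ch_true, ch_false, key, if_true,
    reduceCtorEq, if_false] <;> field_simp <;> ring

/-- Fourier inversion -/
theorem inversion {p : ℝ} (h0 : 0 < p) (h1 : p < 1) (f : (E → Bool) → ℝ) (x : E → Bool) :
    ∑ S, hat p f S * chi p S x = f x := by
  have e1 : ∀ S, hat p f S * chi p S x = ∑ y, wt p y * f y * (chi p S y * chi p S x) := by
    intro S
    unfold hat ex
    rw [Finset.sum_mul]
    exact Finset.sum_congr rfl fun y _ => by ring
  simp only [e1]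
  rw [Finset.sum_comm]
  have e2 : ∀ y : E → Bool, ∑ S : Finset E, wt p y * f y * (chi p S y * chi p S x) =
      if y = x then f x else 0 := by
    intro y
    rw [← Finset.mul_sum]
    have e3 : ∑ S : Finset E, chi p S y * chi p S x = ∏ e, (1 + ch p (y e) * ch p (x e)) := by
      rw [Finset.prod_one_add, Finset.powerset_univ]
      refine Finset.sum_congr rfl fun S _ => ?_
      unfold chi
      rw [← Finset.prod_mul_distrib]
    rw [e3, mul_right_comm]
    unfold wt
    rw [← Finset.prod_mul_distrib]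
    have e4 : ∏ e, bw p (y e) * (1 + ch p (y e) * ch p (x e)) =
        ∏ e, if y e = x e then (1 : ℝ) else 0 :=
      Finset.prod_congr rfl fun e _ => one_add_ch_mul h0 h1 _ _
    rw [e4]
    split_ifs with hyx
    · subst hyx; simp
    · have : ∃ e, y e ≠ x e := Function.ne_iff.1 hyx
      obtain ⟨e, he⟩ := this
      rw [Finset.prod_eq_zero (Finset.mem_univ e) (by simp [he]), zero_mul]
  simp only [e2]
  simp

/-- coefficients of a sum of characters -/
theorem hat_sum {p : ℝ} (h0 : 0 < p) (h1 : p < 1) (a : Finset E → ℝ) (T : Finset E) :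
    hat p (fun x => ∑ S, a S * chi p S x) T = a T := by
  unfold hat
  have : ∀ x : E → Bool, (∑ S, a S * chi p S x) * chi p T x =
      ∑ S, a S * (chi p S x * chi p T x) := by
    intro x
    rw [Finset.sum_mul]
    exact Finset.sum_congr rfl fun S _ => by ring
  rw [ex_congr p this, ex_sum]
  simp only [ex_mul_left, ex_chi_mul_chi h0 h1]
  simp

theorem ex_sum_sq {p : ℝ} (h0 : 0 < p) (h1 : p < 1) (a : Finset E → ℝ) :
    ex p (fun x => (∑ S, a S * chi p S x) ^ 2) = ∑ S, (a S) ^ 2 := by
  have : ∀ x : E → Bool, (∑ S, a S * chi p S x) ^ 2 =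
      ∑ S, ∑ T, a S * a T * (chi p S x * chi p T x) := by
    intro x
    rw [pow_two, Finset.sum_mul_sum]
    exact Finset.sum_congr rfl fun S _ => Finset.sum_congr rfl fun T _ => by ring
  rw [ex_congr p this, ex_sum]
  refine Finset.sum_congr rfl fun S _ => ?_
  rw [ex_sum]
  simp only [ex_mul_left, ex_chi_mul_chi h0 h1]
  simp [pow_two]

theorem parseval (p : ℝ) (hp0 : 0 < p) (hp1 : p < 1)
    (f : (E → Bool) → ℝ) : ∑ S, (hat p f S) ^ 2 = ex p (fun x => (f x) ^ 2) := by
  rw [← ex_sum_sq hp0 hp1]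
  exact ex_congr p fun x => by rw [inversion hp0 hp1]

theorem hat_empty (p : ℝ) (f : (E → Bool) → ℝ) : hat p f ∅ = ex p f := by
  unfold hat chi
  exact ex_congr p fun x => by simp

/-! ### derivatives -/

theorem del_chi (p : ℝ) (e : E) (S : Finset E) (x : E → Bool) :
    del e (chi p S) x =
      if e ∈ S then chi p (S.erase e) x / Real.sqrt (p * (1 - p)) else 0 := by
  unfold del chi
  split_ifs with he
  · rw [← Finset.mul_prod_erase S _ he, ← Finset.mul_prod_erase S
      (fun e' => ch p (Function.update x e false e')) he]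
    have h : ∀ b, ∏ e' ∈ S.erase e, ch p (Function.update x e b e') =
        ∏ e' ∈ S.erase e, ch p (x e') := fun b =>
      Finset.prod_congr rfl fun e' he' => by
        rw [Function.update_of_ne (Finset.ne_of_mem_erase he')]
    rw [h, h, Function.update_self, Function.update_self, ← sub_mul, ch_diff]
    ring
  · have h : ∀ b, ∏ e' ∈ S, ch p (Function.update x e b e') = ∏ e' ∈ S, ch p (x e') := fun b =>
      Finset.prod_congr rfl fun e' he' => by
        rw [Function.update_of_ne (by rintro rfl; exact he he')]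
    rw [h, h, sub_self]

omit [Fintype E] in
theorem del_sum {ι : Type*} (e : E) (s : Finset ι) (f : ι → (E → Bool) → ℝ) (x : E → Bool) :
    del e (fun x => ∑ i ∈ s, f i x) x = ∑ i ∈ s, del e (f i) x := by
  unfold del
  rw [← Finset.sum_sub_distrib]

/-- the derivative, expanded in characters -/
theorem del_expand {p : ℝ} (h0 : 0 < p) (h1 : p < 1) (e : E) (f : (E → Bool) → ℝ)
    (x : E → Bool) :
    del e f x = ∑ U : Finset E,
      (if e ∈ U then 0 else hat p f (insert e U) / Real.sqrt (p * (1 - p))) * chi p U x := by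
  have h : f = fun x => ∑ S, hat p f S * chi p S x := by
    funext x; rw [inversion h0 h1]
  conv_lhs => rw [h]
  rw [del_sum]
  have e1 : ∀ S : Finset E, del e (fun x => hat p f S * chi p S x) x =
      if e ∈ S then hat p f S * (chi p (S.erase e) x / Real.sqrt (p * (1 - p))) else 0 := by
    intro S
    have : del e (fun x => hat p f S * chi p S x) x = hat p f S * del e (chi p S) x := by
      unfold del; ring
    rw [this, del_chi]
    split_ifs <;> simp
  simp only [e1]
  rw [← Finset.sum_filter]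
  have e2 : ∀ U : Finset E,
      (if e ∈ U then 0 else hat p f (insert e U) / Real.sqrt (p * (1 - p))) * chi p U x =
      if e ∉ U then hat p f (insert e U) / Real.sqrt (p * (1 - p)) * chi p U x else 0 := by
    intro U
    by_cases he : e ∈ U <;> simp [he]
  simp only [e2]
  rw [← Finset.sum_filter]
  refine Finset.sum_nbij' (fun S => S.erase e) (fun U => insert e U) ?_ ?_ ?_ ?_ ?_
  · intro S hS; simp
  · intro U hU; simp
  · intro S hS; simp only [mem_filter, mem_univ, true_and] at hS; exact Finset.insert_erase hS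
  · intro U hU; simp only [mem_filter, mem_univ, true_and] at hU; exact Finset.erase_insert hU
  · intro S hS
    simp only [mem_filter, mem_univ, true_and] at hS
    rw [Finset.insert_erase hS]
    ring

theorem hat_del {p : ℝ} (h0 : 0 < p) (h1 : p < 1) (e : E) (f : (E → Bool) → ℝ) (U : Finset E) :
    hat p (del e f) U = if e ∈ U then 0 else hat p f (insert e U) / Real.sqrt (p * (1 - p)) := by
  have h : del e f = fun x => ∑ U : Finset E,
      (if e ∈ U then 0 else hat p f (insert e U) / Real.sqrt (p * (1 - p))) * chi p U x := by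
    funext x; exact del_expand h0 h1 e f x
  rw [h]
  exact hat_sum h0 h1 _ U

/-- second moment of the derivative -/
theorem ex_del_sq {p : ℝ} (h0 : 0 < p) (h1 : p < 1) (e : E) (f : (E → Bool) → ℝ) :
    p * (1 - p) * ex p (fun x => (del e f x) ^ 2) =
      ∑ S ∈ univ.filter (fun S : Finset E => e ∈ S), (hat p f S) ^ 2 := by
  rw [← parseval p h0 h1, Finset.mul_sum]
  have e2 : ∀ U : Finset E, p * (1 - p) * (hat p (del e f) U) ^ 2 =
      if e ∉ U then (hat p f (insert e U)) ^ 2 else 0 := by
    intro U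
    rw [hat_del h0 h1]
    by_cases he : e ∈ U
    · simp [he]
    · simp only [he, if_false, not_false_iff, if_true]
      rw [div_pow, sg_sq h0 h1]
      have : p * (1 - p) ≠ 0 := (mul_pos h0 (by linarith)).ne'
      rw [mul_div_cancel₀ _ this]
  simp only [e2]
  rw [← Finset.sum_filter]
  symm
  refine Finset.sum_nbij' (fun S => S.erase e) (fun U => insert e U) ?_ ?_ ?_ ?_ ?_
  · intro S hS; simp
  · intro U hU; simp
  · intro S hS; simp only [mem_filter, mem_univ, true_and] at hS; exact Finset.insert_erase hS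
  · intro U hU; simp only [mem_filter, mem_univ, true_and] at hU; exact Finset.erase_insert hU
  · intro S hS
    simp only [mem_filter, mem_univ, true_and] at hS
    rw [Finset.insert_erase hS]

theorem infl_eq (p : ℝ) (hp0 : 0 < p) (hp1 : p < 1) (f : (E → Bool) → ℝ) :
    p * (1 - p) * infl p f = ∑ S, (S.card : ℝ) * (hat p f S) ^ 2 := by
  unfold infl
  rw [Finset.mul_sum]
  simp only [ex_del_sq hp0 hp1]
  have h : ∀ e : E, ∑ S ∈ univ.filter (fun S : Finset E => e ∈ S), (hat p f S) ^ 2 =
      ∑ S : Finset E, if e ∈ S then (hat p f S) ^ 2 else 0 := fun e => by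
    rw [Finset.sum_filter]
  simp only [h]
  rw [Finset.sum_comm]
  refine Finset.sum_congr rfl fun S _ => ?_
  rw [Finset.sum_ite_mem, Finset.univ_inter, Finset.sum_const, nsmul_eq_mul]

end Vale.Agent.FK
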