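import Vale.Agent.FK.Hyper

/-!
# P063: Friedgut-type lemma and the core inequality
-/

namespace Vale.Agent.FK

open Finset

variable {E : Type} [Fintype E] [DecidableEq E]

theorem sum_biUnion_le {ι κ : Type} [DecidableEq ι] [DecidableEq κ] (B : Finset ι)
    (F : ι → Finset κ) (f : κ → ℝ) (hf : ∀ k, 0 ≤ f k) :
    ∑ k ∈ B.biUnion F, f k ≤ ∑ i ∈ B, ∑ k ∈ F i, f k := by
  induction B using Finset.induction_on with
  | empty => simp
  | insert i B hi ih =>
    rw [Finset.biUnion_insert, Finset.sum_insert hi]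
    have h := Finset.sum_union_inter (s₁ := F i) (s₂ := B.biUnion F) (f := f)
    have h2 : 0 ≤ ∑ k ∈ F i ∩ B.biUnion F, f k := Finset.sum_nonneg fun k _ => hf k
    linarith

/-! ### low degree part of a function with values in `{-1,0,1}` -/

theorem low_part (p : ℝ) (hp0 : 0 < p) (hp1 : p < 1) (h : (E → Bool) → ℝ)
    (hh : ∀ x, h x = 0 ∨ h x = 1 ∨ h x = -1) (m : ℕ) :
    (∑ U ∈ univ.filter (fun U : Finset E => U.card ≤ m), (hat p h U) ^ 2) ^ 2 ≤
      (ex p (fun x => (h x) ^ 2)) ^ 3 * (bb p ^ m) ^ 2 := by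
  set W := ∑ U ∈ univ.filter (fun U : Finset E => U.card ≤ m), (hat p h U) ^ 2 with hW
  set P := ex p (fun x => (h x) ^ 2) with hP
  set a : Finset E → ℝ := fun U => if U.card ≤ m then hat p h U else 0 with ha
  set u : (E → Bool) → ℝ := fun x => ∑ U, a U * chi p U x with hu
  have hW0 : 0 ≤ W := Finset.sum_nonneg fun U _ => sq_nonneg _
  have hP0 : 0 ≤ P := ex_nonneg hp0.le hp1.le fun x => sq_nonneg _
  have h1 : ex p (fun x => (u x) ^ 2) = W := by
    rw [hu, ex_sum_sq hp0 hp1, hW, Finset.sum_filter]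
    refine Finset.sum_congr rfl fun U _ => ?_
    simp only [ha]
    split_ifs <;> simp
  have h2 : ex p (fun x => h x * u x) = W := by
    have e1 : ∀ x : E → Bool, h x * u x = ∑ U, a U * (h x * chi p U x) := by
      intro x
      rw [hu, Finset.mul_sum]
      exact Finset.sum_congr rfl fun U _ => by ring
    rw [ex_congr p e1, ex_sum, hW, Finset.sum_filter]
    refine Finset.sum_congr rfl fun U _ => ?_
    rw [ex_mul_left]
    simp only [ha]
    split_ifs
    · rw [pow_two]; rfl
    · simp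
  have h4 : ex p (fun x => (u x) ^ 4) ≤ (bb p ^ m * W) ^ 2 := by
    rw [← h1]
    refine hyper4 p hp0 hp1 m a fun S hS => ?_
    simp only [ha]
    rw [if_neg (not_le.2 hS)]
  have hh3 : ∀ x, h x ^ 2 * (h x * u x) = h x * u x := by
    intro x
    rcases hh x with h' | h' | h' <;> rw [h'] <;> ring
  have hh4 : ∀ x, (h x ^ 2) ^ 2 = h x ^ 2 := by
    intro x
    rcases hh x with h' | h' | h' <;> rw [h'] <;> ring
  have c1 := ex_cs hp0.le hp1.le (fun x => h x ^ 2) (fun x => h x * u x)
  simp only [hh3, hh4, mul_pow] at c1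
  rw [h2] at c1
  have c2 := ex_cs hp0.le hp1.le (fun x => h x ^ 2) (fun x => u x ^ 2)
  simp only [hh4] at c2
  have e4 : ∀ x, (u x ^ 2) ^ 2 = u x ^ 4 := fun x => by ring
  simp only [e4] at c2
  change W ^ 2 ≤ P * _ at c1
  change _ ≤ P * _ at c2
  set R := ex p (fun x => h x ^ 2 * u x ^ 2) with hR
  have hR0 : 0 ≤ R := ex_nonneg hp0.le hp1.le fun x => by positivity
  have c3 : (W ^ 2) ^ 2 ≤ P ^ 3 * (bb p ^ m * W) ^ 2 := by
    calc (W ^ 2) ^ 2 ≤ (P * R) ^ 2 := pow_le_pow_left₀ (sq_nonneg _) c1 2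
      _ = P ^ 2 * R ^ 2 := by ring
      _ ≤ P ^ 2 * (P * ex p (fun x => u x ^ 4)) := mul_le_mul_of_nonneg_left c2 (sq_nonneg _)
      _ ≤ P ^ 2 * (P * (bb p ^ m * W) ^ 2) :=
          mul_le_mul_of_nonneg_left (mul_le_mul_of_nonneg_left h4 hP0) (sq_nonneg _)
      _ = _ := by ring
  rcases hW0.eq_or_lt with h0 | hpos
  · rw [← h0]
    have : 0 ≤ P ^ 3 * (bb p ^ m) ^ 2 := by positivity
    simpa using this
  · have hW2 : 0 < W ^ 2 := by positivity
    have : W ^ 2 * W ^ 2 ≤ P ^ 3 * (bb p ^ m) ^ 2 * W ^ 2 := by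
      calc W ^ 2 * W ^ 2 = (W ^ 2) ^ 2 := by ring
        _ ≤ P ^ 3 * (bb p ^ m * W) ^ 2 := c3
        _ = _ := by ring
    exact le_of_mul_le_mul_right this hW2

omit [Fintype E] in
theorem del_bool (g : (E → Bool) → ℝ) (hg : ∀ x, g x = 0 ∨ g x = 1) (e : E) (x : E → Bool) :
    del e g x = 0 ∨ del e g x = 1 ∨ del e g x = -1 := by
  unfold del
  rcases hg (Function.update x e true) with h | h <;>
    rcases hg (Function.update x e false) with h' | h' <;> rw [h, h'] <;> norm_num

theorem card_small (G : Finset E) (d : ℕ) :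
    (univ.filter (fun T : Finset E => T ⊆ G ∧ T.card ≤ d)).card ≤ (G.card + 1) ^ d := by
  have h1 : univ.filter (fun T : Finset E => T ⊆ G ∧ T.card ≤ d) ⊆
      (Finset.range (d + 1)).biUnion (fun k => G.powersetCard k) := by
    intro T hT
    simp only [mem_filter, mem_univ, true_and] at hT
    rw [Finset.mem_biUnion]
    exact ⟨T.card, Finset.mem_range.2 (by omega), Finset.mem_powersetCard.2 ⟨hT.1, rfl⟩⟩
  refine (Finset.card_le_card h1).trans (Finset.card_biUnion_le.trans ?_)
  rw [add_pow]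
  refine Finset.sum_le_sum fun k hk => ?_
  rw [Finset.card_powersetCard, one_pow, mul_one]
  have hkd : k ≤ d := by rw [Finset.mem_range] at hk; omega
  calc G.card.choose k ≤ G.card ^ k := Nat.choose_le_pow _ _
    _ = G.card ^ k * 1 := by ring
    _ ≤ G.card ^ k * d.choose k := Nat.mul_le_mul_left _ (Nat.choose_pos hkd)

theorem infl_nonneg {p : ℝ} (h0 : 0 ≤ p) (h1 : p ≤ 1) (g : (E → Bool) → ℝ) : 0 ≤ infl p g :=
  Finset.sum_nonneg fun _ _ => ex_nonneg h0 h1 fun _ => sq_nonneg _

theorem coord_small (p : ℝ) (hp0 : 0 < p) (hp1 : p < 1) (g : (E → Bool) → ℝ)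
    (hg : ∀ x, g x = 0 ∨ g x = 1) (d : ℕ) (δ : ℝ) (hδ : 0 < δ) (e : E)
    (he : ex p (fun x => (del e g x) ^ 2) < δ ^ 2) :
    ∑ T ∈ univ.filter (fun T : Finset E => e ∈ T ∧ T.card ≤ d), (hat p g T) ^ 2 ≤
      ex p (fun x => (del e g x) ^ 2) * (δ * bb p ^ d) := by
  set P := ex p (fun x => (del e g x) ^ 2) with hP
  have hP0 : 0 ≤ P := ex_nonneg hp0.le hp1.le fun x => sq_nonneg _
  have hb := bb_ge hp0 hp1
  have hb0 : 0 < bb p ^ d := by positivity
  set W := ∑ U ∈ univ.filter (fun U : Finset E => U.card ≤ d), (hat p (del e g) U) ^ 2 with hW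
  have hlow := low_part p hp0 hp1 (del e g) (del_bool g hg e) d
  rw [← hW, ← hP] at hlow
  have h1 : ∑ T ∈ univ.filter (fun T : Finset E => e ∈ T ∧ T.card ≤ d), (hat p g T) ^ 2 ≤ W := by
    have e1 : ∑ T ∈ univ.filter (fun T : Finset E => e ∈ T ∧ T.card ≤ d), (hat p g T) ^ 2 =
        ∑ U ∈ univ.filter (fun U : Finset E => e ∉ U ∧ (insert e U).card ≤ d),
          (hat p g (insert e U)) ^ 2 := by
      refine Finset.sum_nbij' (fun S => S.erase e) (fun U => insert e U) ?_ ?_ ?_ ?_ ?_
      · intro S hS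
        simp only [mem_filter, mem_univ, true_and] at hS ⊢
        refine ⟨by simp, ?_⟩
        rw [Finset.insert_erase hS.1]; exact hS.2
      · intro U hU
        simp only [mem_filter, mem_univ, true_and] at hU ⊢
        exact ⟨Finset.mem_insert_self _ _, hU.2⟩
      · intro S hS; simp only [mem_filter, mem_univ, true_and] at hS
        exact Finset.insert_erase hS.1
      · intro U hU; simp only [mem_filter, mem_univ, true_and] at hU
        exact Finset.erase_insert hU.1
      · intro S hS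
        simp only [mem_filter, mem_univ, true_and] at hS
        rw [Finset.insert_erase hS.1]
    rw [e1]
    have hsub : univ.filter (fun U : Finset E => e ∉ U ∧ (insert e U).card ≤ d) ⊆
        univ.filter (fun U : Finset E => U.card ≤ d) := by
      intro U hU
      simp only [mem_filter, mem_univ, true_and] at hU ⊢
      rw [Finset.card_insert_of_notMem hU.1] at hU
      omega
    refine le_trans (Finset.sum_le_sum fun U hU => ?_)
      (Finset.sum_le_sum_of_subset_of_nonneg hsub fun U _ _ => sq_nonneg _)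
    simp only [mem_filter, mem_univ, true_and] at hU
    rw [hat_del hp0 hp1, if_neg hU.1, div_pow, sg_sq hp0 hp1]
    rw [le_div_iff₀ (mul_pos hp0 (by linarith))]
    have : p * (1 - p) ≤ 1 := by nlinarith
    nlinarith [sq_nonneg (hat p g (insert e U))]
  refine h1.trans ?_
  have hW0 : 0 ≤ W := Finset.sum_nonneg fun U _ => sq_nonneg _
  refine le_trans (le_abs_self W) (abs_le_of_sq_le_sq ?_ (by positivity))
  calc W ^ 2 ≤ P ^ 3 * (bb p ^ d) ^ 2 := hlow
    _ = P ^ 2 * (bb p ^ d) ^ 2 * P := by ring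
    _ ≤ P ^ 2 * (bb p ^ d) ^ 2 * δ ^ 2 := mul_le_mul_of_nonneg_left he.le (by positivity)
    _ = _ := by ring

/-- Friedgut-type lemma -/
theorem small_coeffs (p : ℝ) (hp0 : 0 < p) (hp1 : p < 1) (g : (E → Bool) → ℝ)
    (hg : ∀ x, g x = 0 ∨ g x = 1) (d : ℕ) (θ δ L : ℝ) (hδ : 0 < δ) (hL : 0 < L) :
    ∑ T ∈ univ.filter (fun T : Finset E => T.card ≤ d ∧ |hat p g T| < θ), (hat p g T) ^ 2
      ≤ bb p ^ d * δ * infl p g + θ ^ 2 * (L / δ ^ 2 + 1) ^ d + infl p g / L := by
  have hb := bb_ge hp0 hp1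
  have hI0 := infl_nonneg hp0.le hp1.le g
  have hfirst : 0 ≤ bb p ^ d * δ * infl p g := by positivity
  have hsecond : 0 ≤ θ ^ 2 * (L / δ ^ 2 + 1) ^ d := by positivity
  have hthird : 0 ≤ infl p g / L := by positivity
  rcases le_or_gt (infl p g) L with hle | hgt
  · set P : E → ℝ := fun e => ex p (fun x => (del e g x) ^ 2) with hP
    set B : Finset E := univ.filter (fun e => P e < δ ^ 2) with hB
    set G : Finset E := univ.filter (fun e => ¬ P e < δ ^ 2) with hG
    have hP0 : ∀ e, 0 ≤ P e := fun e => ex_nonneg hp0.le hp1.le fun x => sq_nonneg _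
    have hGcard : (G.card : ℝ) ≤ L / δ ^ 2 := by
      rw [le_div_iff₀ (by positivity)]
      calc (G.card : ℝ) * δ ^ 2 = ∑ _e ∈ G, δ ^ 2 := by rw [Finset.sum_const, nsmul_eq_mul]
        _ ≤ ∑ e ∈ G, P e := Finset.sum_le_sum fun e he => by
            simp only [hG, mem_filter, mem_univ, true_and, not_lt] at he
            exact he
        _ ≤ ∑ e, P e := Finset.sum_le_univ_sum_of_nonneg hP0
        _ = infl p g := rfl
        _ ≤ L := hle
    have hcover : univ.filter (fun T : Finset E => T.card ≤ d ∧ |hat p g T| < θ) ⊆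
        (B.biUnion fun e => univ.filter (fun T : Finset E => e ∈ T ∧ T.card ≤ d)) ∪
        univ.filter (fun T : Finset E => (T ⊆ G ∧ T.card ≤ d) ∧ |hat p g T| < θ) := by
      intro T hT
      simp only [mem_filter, mem_univ, true_and] at hT
      by_cases hTG : T ⊆ G
      · rw [Finset.mem_union]; right
        simp only [mem_filter, mem_univ, true_and]
        exact ⟨⟨hTG, hT.1⟩, hT.2⟩
      · rw [Finset.mem_union]; left
        obtain ⟨e, heT, heG⟩ := Finset.not_subset.1 hTG
        rw [Finset.mem_biUnion]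
        refine ⟨e, ?_, by simp only [mem_filter, mem_univ, true_and]; exact ⟨heT, hT.1⟩⟩
        simp only [hB, mem_filter, mem_univ, true_and]
        simp only [hG, mem_filter, mem_univ, true_and, not_not] at heG
        exact heG
    have hsum1 : ∑ T ∈ (B.biUnion fun e => univ.filter (fun T : Finset E => e ∈ T ∧ T.card ≤ d)),
        (hat p g T) ^ 2 ≤ bb p ^ d * δ * infl p g := by
      refine (sum_biUnion_le B _ (fun T => (hat p g T) ^ 2)
        (fun T => sq_nonneg _)).trans ?_
      calc ∑ e ∈ B, ∑ T ∈ univ.filter (fun T : Finset E => e ∈ T ∧ T.card ≤ d), (hat p g T) ^ 2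
          ≤ ∑ e ∈ B, P e * (δ * bb p ^ d) := Finset.sum_le_sum fun e he => by
            simp only [hB, mem_filter, mem_univ, true_and] at he
            exact coord_small p hp0 hp1 g hg d δ hδ e he
        _ = (∑ e ∈ B, P e) * (δ * bb p ^ d) := by rw [Finset.sum_mul]
        _ ≤ infl p g * (δ * bb p ^ d) := by
            refine mul_le_mul_of_nonneg_right ?_ (by positivity)
            exact Finset.sum_le_univ_sum_of_nonneg hP0
        _ = _ := by ring
    have hsum2 : ∑ T ∈ univ.filter (fun T : Finset E => (T ⊆ G ∧ T.card ≤ d) ∧ |hat p g T| < θ),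
        (hat p g T) ^ 2 ≤ θ ^ 2 * (L / δ ^ 2 + 1) ^ d := by
      calc ∑ T ∈ univ.filter (fun T : Finset E => (T ⊆ G ∧ T.card ≤ d) ∧ |hat p g T| < θ),
          (hat p g T) ^ 2
          ≤ ∑ _T ∈ univ.filter (fun T : Finset E => (T ⊆ G ∧ T.card ≤ d) ∧ |hat p g T| < θ),
            θ ^ 2 := Finset.sum_le_sum fun T hT => by
            simp only [mem_filter, mem_univ, true_and] at hT
            rw [← sq_abs]
            exact pow_le_pow_left₀ (abs_nonneg _) hT.2.le 2
        _ = ((univ.filter (fun T : Finset E => (T ⊆ G ∧ T.card ≤ d) ∧ |hat p g T| < θ)).card : ℝ)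
              * θ ^ 2 := by rw [Finset.sum_const, nsmul_eq_mul]
        _ ≤ (L / δ ^ 2 + 1) ^ d * θ ^ 2 := by
            refine mul_le_mul_of_nonneg_right ?_ (sq_nonneg _)
            have h1 : (univ.filter (fun T : Finset E =>
                (T ⊆ G ∧ T.card ≤ d) ∧ |hat p g T| < θ)).card ≤ (G.card + 1) ^ d := by
              refine (Finset.card_le_card ?_).trans (card_small G d)
              intro T hT
              simp only [mem_filter, mem_univ, true_and] at hT ⊢
              exact hT.1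
            calc ((univ.filter (fun T : Finset E =>
                (T ⊆ G ∧ T.card ≤ d) ∧ |hat p g T| < θ)).card : ℝ)
                ≤ (((G.card + 1) ^ d : ℕ) : ℝ) := by exact_mod_cast h1
              _ = ((G.card : ℝ) + 1) ^ d := by push_cast; ring
              _ ≤ (L / δ ^ 2 + 1) ^ d := by gcongr
        _ = _ := by ring
    calc ∑ T ∈ univ.filter (fun T : Finset E => T.card ≤ d ∧ |hat p g T| < θ), (hat p g T) ^ 2
        ≤ ∑ T ∈ (B.biUnion fun e => univ.filter (fun T : Finset E => e ∈ T ∧ T.card ≤ d)) ∪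
        univ.filter (fun T : Finset E => (T ⊆ G ∧ T.card ≤ d) ∧ |hat p g T| < θ),
          (hat p g T) ^ 2 := Finset.sum_le_sum_of_subset_of_nonneg hcover fun T _ _ => sq_nonneg _
      _ ≤ bb p ^ d * δ * infl p g + θ ^ 2 * (L / δ ^ 2 + 1) ^ d := by
          refine le_trans ?_ (add_le_add hsum1 hsum2)
          rw [← Finset.sum_union_inter]
          exact le_add_of_nonneg_right (Finset.sum_nonneg fun T _ => sq_nonneg _)
      _ ≤ _ := le_add_of_nonneg_right hthird
  · have h1 : ∑ T ∈ univ.filter (fun T : Finset E => T.card ≤ d ∧ |hat p g T| < θ),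
        (hat p g T) ^ 2 ≤ 1 := by
      refine (Finset.sum_le_univ_sum_of_nonneg fun T => sq_nonneg _).trans ?_
      rw [parseval p hp0 hp1, ← ex_const (E := E) p 1]
      refine ex_mono hp0.le hp1.le fun x => ?_
      rcases hg x with h | h <;> rw [h] <;> norm_num
    have h2 : 1 ≤ infl p g / L := by rw [le_div_iff₀ hL]; linarith
    linarith

end Vale.Agent.FK
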