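import Vale.Agent.FK.Core

/-!
# P063: the core inequality for a fixed set `J`
-/

namespace Vale.Agent.FK

open Finset

variable {E : Type} [Fintype E] [DecidableEq E]

/-! ### mixing -/

omit [Fintype E] in
theorem mix_update (J : Finset E) (y x : E → Bool) (e : E) (b : Bool) :
    mix J (Function.update y e b) x =
      if e ∈ J then Function.update (mix J y x) e b else mix J y x := by
  split_ifs with he
  · funext e'
    unfold mix
    by_cases h : e' = e
    · subst h; simp [he]
    · simp [Function.update_of_ne h]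
  · funext e'
    unfold mix
    by_cases h : e' = e
    · subst h; simp [he]
    · simp [Function.update_of_ne h]

theorem ex_mix (p : ℝ) (J : Finset E) (F : (E → Bool) → ℝ) :
    ex p (fun x => ex p (fun y => F (mix J y x))) = ex p F := by
  have h1 : ex p (fun x => ex p (fun y => F (mix J y x))) =
      ∑ z : (E → Bool) × (E → Bool), wt p z.1 * wt p z.2 * F (mix J z.2 z.1) := by
    rw [Fintype.sum_prod_type]
    unfold ex
    refine Finset.sum_congr rfl fun x _ => ?_
    rw [Finset.mul_sum]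
    exact Finset.sum_congr rfl fun y _ => by ring
  have h2 : ex p F = ∑ z : (E → Bool) × (E → Bool), wt p z.1 * wt p z.2 * F z.1 := by
    rw [Fintype.sum_prod_type]
    unfold ex
    refine Finset.sum_congr rfl fun x _ => ?_
    have h3 : ∀ y : E → Bool, wt p x * wt p y * F x = wt p x * F x * (wt p y * 1) :=
      fun y => by ring
    simp only [h3]
    rw [← Finset.mul_sum]
    have := ex_const (E := E) p 1
    unfold ex at this
    rw [this, mul_one]
  rw [h1, h2]
  let φ : (E → Bool) × (E → Bool) → (E → Bool) × (E → Bool) :=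
    fun z => (mix J z.2 z.1, mix J z.1 z.2)
  have hφ : Function.Involutive φ := by
    intro z
    refine Prod.ext ?_ ?_
    · funext e
      by_cases h : e ∈ J <;> simp [φ, mix, h]
    · funext e
      by_cases h : e ∈ J <;> simp [φ, mix, h]
  refine Fintype.sum_equiv hφ.toPerm _ _ fun z => ?_
  change _ = wt p (mix J z.2 z.1) * wt p (mix J z.1 z.2) * F (mix J z.2 z.1)
  congr 1
  unfold wt
  rw [← Finset.prod_mul_distrib, ← Finset.prod_mul_distrib]
  refine Finset.prod_congr rfl fun e _ => ?_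
  by_cases h : e ∈ J <;> simp [mix, h]
  ring

theorem ex_infl_mix {p : ℝ} (h0 : 0 ≤ p) (h1 : p ≤ 1) (J : Finset E) (f : (E → Bool) → ℝ) :
    ex p (fun x => infl p (fun y => f (mix J y x))) ≤ infl p f := by
  unfold infl
  rw [ex_sum]
  refine Finset.sum_le_sum fun e _ => ?_
  by_cases he : e ∈ J
  · have e1 : ∀ x y : E → Bool, (del e (fun y => f (mix J y x)) y) ^ 2 =
        (fun z => (del e f z) ^ 2) (mix J y x) := by
      intro x y
      simp only [del, mix_update, he, if_true]
    simp only [e1]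
    exact (ex_mix p J (fun z => (del e f z) ^ 2)).le
  · have e1 : ∀ x y : E → Bool, (del e (fun y => f (mix J y x)) y) ^ 2 = 0 := by
      intro x y
      simp only [del, mix_update, he, if_false]
      ring
    simp only [e1, ex_const]
    exact ex_nonneg h0 h1 fun x => sq_nonneg _

omit [Fintype E] in
theorem chi_mix (p : ℝ) (J S : Finset E) (y x : E → Bool) :
    chi p S (mix J y x) = chi p (S ∩ J) y * chi p (S \ J) x := by
  unfold chi
  rw [← Finset.prod_inter_mul_prod_sdiff S J]
  congr 1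
  · refine Finset.prod_congr rfl fun e he => ?_
    simp [mix, (Finset.mem_inter.1 he).2]
  · refine Finset.prod_congr rfl fun e he => ?_
    simp [mix, (Finset.mem_sdiff.1 he).2]

/-- partial sums -/
noncomputable def pf (p : ℝ) (J T : Finset E) (G : Finset E → ℝ) (x : E → Bool) : ℝ :=
  ∑ S ∈ univ.filter (fun S : Finset E => S ∩ J = T), G S * chi p (S \ J) x

theorem hat_mix {p : ℝ} (h0 : 0 < p) (h1 : p < 1) (f : (E → Bool) → ℝ) (J T : Finset E)
    (x : E → Bool) : hat p (fun y => f (mix J y x)) T = pf p J T (hat p f) x := by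
  have e1 : (fun y => f (mix J y x)) = fun y => ∑ V, pf p J V (hat p f) x * chi p V y := by
    funext y
    rw [← inversion h0 h1 f (mix J y x)]
    rw [← Finset.sum_fiberwise_of_maps_to (s := univ) (t := univ) (g := fun S : Finset E => S ∩ J)
      (fun S _ => Finset.mem_univ _)]
    refine Finset.sum_congr rfl fun V _ => ?_
    unfold pf
    rw [Finset.sum_mul]
    refine Finset.sum_congr rfl fun S hS => ?_
    rw [chi_mix, (Finset.mem_filter.1 hS).2]
    ring
  rw [e1]
  exact hat_sum h0 h1 _ T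

/-- reindexing by the part outside `J` -/
theorem sum_outside {M : Type*} [AddCommMonoid M] (J T : Finset E) (hT : T ⊆ J)
    (F : Finset E → Finset E → M) :
    ∑ S ∈ univ.filter (fun S : Finset E => S ∩ J = T), F S (S \ J) =
      ∑ U ∈ univ.filter (fun U : Finset E => Disjoint U J), F (T ∪ U) U := by
  refine Finset.sum_nbij' (fun S => S \ J) (fun U => T ∪ U) ?_ ?_ ?_ ?_ ?_
  · intro S _
    simp only [mem_filter, mem_univ, true_and]
    exact Finset.sdiff_disjoint
  · intro U hU
    simp only [mem_filter, mem_univ, true_and] at hU ⊢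
    rw [Finset.union_inter_distrib_right, Finset.inter_eq_left.2 hT,
      Finset.disjoint_iff_inter_eq_empty.1 hU, Finset.union_empty]
  · intro S hS
    simp only [mem_filter, mem_univ, true_and] at hS
    rw [← hS, Finset.union_comm]
    exact Finset.sdiff_union_inter S J
  · intro U hU
    simp only [mem_filter, mem_univ, true_and] at hU
    rw [Finset.union_sdiff_distrib, Finset.sdiff_eq_empty_iff_subset.2 hT, Finset.empty_union]
    exact Finset.sdiff_eq_self_of_disjoint hU
  · intro S hS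
    simp only [mem_filter, mem_univ, true_and] at hS
    congr 1
    rw [← hS, Finset.union_comm]
    exact (Finset.sdiff_union_inter S J).symm

theorem pf_eq (p : ℝ) (J T : Finset E) (hT : T ⊆ J) (G : Finset E → ℝ) (x : E → Bool) :
    pf p J T G x = ∑ U, (if Disjoint U J then G (T ∪ U) else 0) * chi p U x := by
  unfold pf
  rw [sum_outside J T hT (fun S U => G S * chi p U x), Finset.sum_filter]
  refine Finset.sum_congr rfl fun U _ => ?_
  split_ifs <;> simp

theorem ex_pf_sq {p : ℝ} (h0 : 0 < p) (h1 : p < 1) (J T : Finset E) (hT : T ⊆ J)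
    (G : Finset E → ℝ) :
    ex p (fun x => (pf p J T G x) ^ 2) =
      ∑ S ∈ univ.filter (fun S : Finset E => S ∩ J = T), (G S) ^ 2 := by
  simp only [pf_eq p J T hT G]
  rw [ex_sum_sq h0 h1, sum_outside J T hT (fun S _ => (G S) ^ 2), Finset.sum_filter]
  refine Finset.sum_congr rfl fun U _ => ?_
  split_ifs <;> simp

theorem ex_pf_four {p : ℝ} (h0 : 0 < p) (h1 : p < 1) (J T : Finset E) (hT : T ⊆ J)
    (G : Finset E → ℝ) (D : ℕ) (hG : ∀ S, D < S.card → G S = 0) :
    ex p (fun x => (pf p J T G x) ^ 4) ≤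
      (bb p ^ D * ex p (fun x => (pf p J T G x) ^ 2)) ^ 2 := by
  simp only [pf_eq p J T hT G]
  refine hyper4 p h0 h1 D _ fun U hU => ?_
  split_ifs
  · exact hG _ (lt_of_lt_of_le hU (Finset.card_le_card Finset.subset_union_right))
  · rfl

theorem arith_core (w u m X θ b2 lam Y4 PA : ℝ) (hw : 0 ≤ w) (hu : 0 ≤ u) (hm : 0 ≤ m)
    (_hθ : 0 < θ) (hb2 : 0 ≤ b2) (hwl : w ≤ lam) (hcond : 256 * b2 * lam ≤ θ ^ 2)
    (hX : X ^ 2 ≤ Y4 * PA) (hY4 : Y4 ≤ b2 * w ^ 2) (hPA0 : 0 ≤ PA)
    (hPA : θ ^ 2 * PA ≤ w + u) (htot : w + u ≤ m + 2 * X + 2 * u) :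
    w ≤ 2 * m + 2 * u := by
  have h1 : X ≤ (w + u) / 16 := by
    refine le_trans (le_abs_self X) (abs_le_of_sq_le_sq ?_ (by positivity))
    have h2 : X ^ 2 ≤ b2 * w ^ 2 * PA := hX.trans (mul_le_mul_of_nonneg_right hY4 hPA0)
    have h3 : 256 * (b2 * w) ≤ θ ^ 2 := by nlinarith
    have h4 : 256 * (b2 * w ^ 2 * PA) ≤ θ ^ 2 * PA * w := by
      have : 0 ≤ PA * w := mul_nonneg hPA0 hw
      nlinarith
    have h5 : θ ^ 2 * PA * w ≤ (w + u) * w := mul_le_mul_of_nonneg_right hPA hw
    nlinarith
  linarith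

/-- the inequality for one `T` -/
theorem core_one (p : ℝ) (hp0 : 0 < p) (hp1 : p < 1) (f : (E → Bool) → ℝ)
    (J T : Finset E) (hT : T ⊆ J) (D : ℕ) (θ lam : ℝ) (hθ : 0 < θ)
    (hlam : ∑ S ∈ univ.filter (fun S : Finset E => T ⊆ S ∧ S.card ≤ D), (hat p f S) ^ 2 ≤ lam)
    (hcond : 256 * bb p ^ (2 * D) * lam ≤ θ ^ 2) :
    ∑ S ∈ univ.filter (fun S : Finset E => S ∩ J = T),
        (if S.card ≤ D then (hat p f S) ^ 2 else 0) ≤
      2 * ex p (fun x => if |pf p J T (hat p f) x| < θ then (pf p J T (hat p f) x) ^ 2 else 0) +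
      2 * ∑ S ∈ univ.filter (fun S : Finset E => S ∩ J = T),
        (if D < S.card then (hat p f S) ^ 2 else 0) := by
  set G1 : Finset E → ℝ := fun S => if S.card ≤ D then hat p f S else 0 with hG1
  set G2 : Finset E → ℝ := fun S => if D < S.card then hat p f S else 0 with hG2
  set φ := pf p J T (hat p f) with hφ
  set ψ := pf p J T G1 with hψ
  set ξ := pf p J T G2 with hξ
  have hsum : ∀ x, φ x = ψ x + ξ x := by
    intro x
    rw [hφ, hψ, hξ]
    unfold pf
    rw [← Finset.sum_add_distrib]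
    refine Finset.sum_congr rfl fun S _ => ?_
    simp only [hG1, hG2]
    by_cases h : S.card ≤ D
    · rw [if_pos h, if_neg (not_lt.2 h)]; ring
    · rw [if_neg h, if_pos (not_le.1 h)]; ring
  have ew : ∑ S ∈ univ.filter (fun S : Finset E => S ∩ J = T),
        (if S.card ≤ D then (hat p f S) ^ 2 else 0) = ex p (fun x => (ψ x) ^ 2) := by
    rw [hψ, ex_pf_sq hp0 hp1 J T hT]
    refine Finset.sum_congr rfl fun S _ => ?_
    simp only [hG1]
    split_ifs <;> simp
  have eu : ∑ S ∈ univ.filter (fun S : Finset E => S ∩ J = T),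
        (if D < S.card then (hat p f S) ^ 2 else 0) = ex p (fun x => (ξ x) ^ 2) := by
    rw [hξ, ex_pf_sq hp0 hp1 J T hT]
    refine Finset.sum_congr rfl fun S _ => ?_
    simp only [hG2]
    split_ifs <;> simp
  have etot : ex p (fun x => (φ x) ^ 2) = ex p (fun x => (ψ x) ^ 2) + ex p (fun x => (ξ x) ^ 2) := by
    rw [← ew, ← eu, hφ, ex_pf_sq hp0 hp1 J T hT, ← Finset.sum_add_distrib]
    refine Finset.sum_congr rfl fun S _ => ?_
    by_cases h : S.card ≤ D
    · rw [if_pos h, if_neg (not_lt.2 h)]; ring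
    · rw [if_neg h, if_pos (not_le.1 h)]; ring
  have hwl : ex p (fun x => (ψ x) ^ 2) ≤ lam := by
    rw [← ew]
    refine le_trans ?_ hlam
    rw [← Finset.sum_filter, Finset.filter_filter]
    refine Finset.sum_le_sum_of_subset_of_nonneg ?_ fun S _ _ => sq_nonneg _
    intro S hS
    simp only [mem_filter, mem_univ, true_and] at hS ⊢
    exact ⟨by rw [← hS.1]; exact Finset.inter_subset_left, hS.2⟩
  rw [ew, eu]
  set A : (E → Bool) → ℝ := fun x => if |φ x| < θ then 0 else 1 with hA
  have hAsq : ∀ x, (A x) ^ 2 = A x := by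
    intro x; simp only [hA]; split_ifs <;> norm_num
  refine arith_core (ex p (fun x => (ψ x) ^ 2)) (ex p (fun x => (ξ x) ^ 2)) _
    (ex p (fun x => (ψ x) ^ 2 * A x)) θ (bb p ^ (2 * D)) lam (ex p (fun x => (ψ x) ^ 4))
    (ex p A) (ex_nonneg hp0.le hp1.le fun x => sq_nonneg _)
    (ex_nonneg hp0.le hp1.le fun x => sq_nonneg _)
    (ex_nonneg hp0.le hp1.le fun x => by split_ifs <;> positivity) hθ
    (by have := bb_ge hp0 hp1; positivity) hwl hcond ?_ ?_ ?_ ?_ ?_
  · have := ex_cs hp0.le hp1.le (fun x => (ψ x) ^ 2) A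
    simp only [hAsq, ← pow_mul] at this
    exact this
  · have := ex_pf_four hp0 hp1 J T hT G1 D (fun S hS => by simp only [hG1]; rw [if_neg (not_le.2 hS)])
    refine this.trans (le_of_eq ?_)
    rw [mul_pow, ← pow_mul]
    ring
  · exact ex_nonneg hp0.le hp1.le fun x => by simp only [hA]; split_ifs <;> norm_num
  · rw [← etot, ← ex_mul_left]
    refine ex_mono hp0.le hp1.le fun x => ?_
    simp only [hA]
    split_ifs with h
    · simp; positivity
    · rw [mul_one, ← sq_abs (φ x)]
      exact pow_le_pow_left₀ hθ.le (not_lt.1 h) 2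
  · rw [← etot, ← ex_mul_left, ← ex_mul_left, ← ex_add, ← ex_add]
    refine ex_mono hp0.le hp1.le fun x => ?_
    simp only [hA]
    split_ifs with h
    · have := sq_nonneg (ξ x); nlinarith
    · rw [hsum x]
      nlinarith [sq_nonneg (ψ x - ξ x)]

/-- the core inequality for a fixed `J` -/
theorem core (p : ℝ) (hp0 : 0 < p) (hp1 : p < 1) (f : (E → Bool) → ℝ)
    (hf : ∀ x, f x = 0 ∨ f x = 1) (J : Finset E) (Q : Finset E → Prop) [DecidablePred Q]
    (d D : ℕ) (θ δ L lam : ℝ) (hθ : 0 < θ) (hδ : 0 < δ) (hL : 0 < L)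
    (hQ : ∀ T, Q T → T.card ≤ d)
    (hlam : ∀ T, Q T → ∑ S ∈ univ.filter (fun S => T ⊆ S ∧ S.card ≤ D), (hat p f S) ^ 2 ≤ lam)
    (hcond : 256 * bb p ^ (2 * D) * lam ≤ θ ^ 2) :
    ∑ S ∈ univ.filter (fun S => Q (S ∩ J) ∧ S.card ≤ D), (hat p f S) ^ 2
      ≤ 2 * (bb p ^ d * δ * infl p f + θ ^ 2 * (L / δ ^ 2 + 1) ^ d + infl p f / L)
        + 2 * ∑ S ∈ univ.filter (fun S => Q (S ∩ J) ∧ D < S.card), (hat p f S) ^ 2 := by
  have hb := bb_ge hp0 hp1
  -- rewrite both sums as sums over `T`
  have key : ∀ (c : Finset E → Prop) [DecidablePred c],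
      ∑ S ∈ univ.filter (fun S => Q (S ∩ J) ∧ c S), (hat p f S) ^ 2 =
      ∑ T ∈ univ.filter (fun T => Q T ∧ T ⊆ J),
        ∑ S ∈ univ.filter (fun S : Finset E => S ∩ J = T),
          (if c S then (hat p f S) ^ 2 else 0) := by
    intro c _
    have h1 : ∑ S ∈ univ.filter (fun S => Q (S ∩ J) ∧ c S), (hat p f S) ^ 2 =
        ∑ S ∈ univ.filter (fun S => Q (S ∩ J)), (if c S then (hat p f S) ^ 2 else 0) := by
      rw [← Finset.sum_filter, Finset.filter_filter]
    rw [h1, ← Finset.sum_fiberwise_of_maps_to (s := univ.filter (fun S => Q (S ∩ J)))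
      (t := univ.filter (fun T => Q T ∧ T ⊆ J)) (g := fun S : Finset E => S ∩ J)]
    · refine Finset.sum_congr rfl fun T hT => ?_
      simp only [mem_filter, mem_univ, true_and] at hT
      rw [Finset.filter_filter]
      refine Finset.sum_congr ?_ fun S _ => rfl
      ext S
      simp only [mem_filter, mem_univ, true_and]
      constructor
      · exact fun h => h.2
      · exact fun h => ⟨by rw [h]; exact hT.1, h⟩
    · intro S hS
      simp only [mem_filter, mem_univ, true_and] at hS ⊢
      exact ⟨hS, Finset.inter_subset_right⟩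
  rw [key (fun S => S.card ≤ D), key (fun S => D < S.card)]
  have h1 : ∑ T ∈ univ.filter (fun T => Q T ∧ T ⊆ J),
        ∑ S ∈ univ.filter (fun S : Finset E => S ∩ J = T),
          (if S.card ≤ D then (hat p f S) ^ 2 else 0) ≤
      ∑ T ∈ univ.filter (fun T => Q T ∧ T ⊆ J),
        (2 * ex p (fun x => if |pf p J T (hat p f) x| < θ then (pf p J T (hat p f) x) ^ 2 else 0) +
        2 * ∑ S ∈ univ.filter (fun S : Finset E => S ∩ J = T),
          (if D < S.card then (hat p f S) ^ 2 else 0)) := by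
    refine Finset.sum_le_sum fun T hT => ?_
    simp only [mem_filter, mem_univ, true_and] at hT
    exact core_one p hp0 hp1 f J T hT.2 D θ lam hθ (hlam T hT.1) hcond
  refine h1.trans ?_
  rw [Finset.sum_add_distrib, ← Finset.mul_sum, ← Finset.mul_sum]
  have h2 : ∑ T ∈ univ.filter (fun T => Q T ∧ T ⊆ J),
      ex p (fun x => if |pf p J T (hat p f) x| < θ then (pf p J T (hat p f) x) ^ 2 else 0) ≤
      bb p ^ d * δ * infl p f + θ ^ 2 * (L / δ ^ 2 + 1) ^ d + infl p f / L := by
    rw [← ex_sum]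
    have h3 : ∀ x : E → Bool, ∑ T ∈ univ.filter (fun T => Q T ∧ T ⊆ J),
        (if |pf p J T (hat p f) x| < θ then (pf p J T (hat p f) x) ^ 2 else 0) ≤
        bb p ^ d * δ * infl p (fun y => f (mix J y x)) + θ ^ 2 * (L / δ ^ 2 + 1) ^ d +
          infl p (fun y => f (mix J y x)) / L := by
      intro x
      refine le_trans ?_ (small_coeffs p hp0 hp1 (fun y => f (mix J y x)) (fun y => hf _) d θ δ L
        hδ hL)
      simp only [hat_mix hp0 hp1]
      rw [← Finset.sum_filter, Finset.filter_filter]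
      refine Finset.sum_le_sum_of_subset_of_nonneg ?_ fun S _ _ => sq_nonneg _
      intro T hT
      simp only [mem_filter, mem_univ, true_and] at hT ⊢
      exact ⟨hQ T hT.1.1, hT.2⟩
    refine (ex_mono hp0.le hp1.le h3).trans ?_
    rw [ex_add, ex_add, ex_const, ex_mul_left]
    have h4 : ex p (fun x => infl p (fun y => f (mix J y x)) / L) =
        ex p (fun x => infl p (fun y => f (mix J y x))) / L := by
      simp only [div_eq_mul_inv]
      rw [ex_mul_right]
    rw [h4]
    have h5 := ex_infl_mix hp0.le hp1.le J f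
    have h6 : 0 ≤ bb p ^ d * δ := by positivity
    have h7 : bb p ^ d * δ * ex p (fun x => infl p (fun y => f (mix J y x))) ≤
        bb p ^ d * δ * infl p f := mul_le_mul_of_nonneg_left h5 h6
    have h8 : ex p (fun x => infl p (fun y => f (mix J y x))) / L ≤ infl p f / L :=
      div_le_div_of_nonneg_right h5 hL.le
    linarith
  linarith

end Vale.Agent.FK
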