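import Mathlib

/-!
# P063: definitions (product Bernoulli measures, characters, hypergraph properties)
-/

namespace Vale.Agent.FK

open Finset

section basic

variable {E : Type} [Fintype E] [DecidableEq E]

/-- weight of one bit -/
noncomputable def bw (p : ℝ) (b : Bool) : ℝ := if b = true then p else 1 - p

/-- weight of a configuration: each coordinate is `true` with probability `p`, independently -/
noncomputable def wt (p : ℝ) (x : E → Bool) : ℝ := ∏ e, bw p (x e)

/-- expectation -/
noncomputable def ex (p : ℝ) (f : (E → Bool) → ℝ) : ℝ := ∑ x, wt p x * f x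

/-- normalised bit -/
noncomputable def ch (p : ℝ) (b : Bool) : ℝ :=
  ((if b = true then (1 : ℝ) else 0) - p) / Real.sqrt (p * (1 - p))

/-- `p`-biased character -/
noncomputable def chi (p : ℝ) (S : Finset E) (x : E → Bool) : ℝ := ∏ e ∈ S, ch p (x e)

/-- `p`-biased Fourier coefficient -/
noncomputable def hat (p : ℝ) (f : (E → Bool) → ℝ) (S : Finset E) : ℝ :=
  ex p (fun x => f x * chi p S x)

/-- discrete derivative -/
def del (e : E) (f : (E → Bool) → ℝ) (x : E → Bool) : ℝ :=
  f (Function.update x e true) - f (Function.update x e false)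

/-- total influence -/
noncomputable def infl (p : ℝ) (f : (E → Bool) → ℝ) : ℝ :=
  ∑ e, ex p (fun x => (del e f x) ^ 2)

/-- use `y` on `J` and `x` off `J` -/
def mix (J : Finset E) (y x : E → Bool) : E → Bool := fun e => if e ∈ J then y e else x e

/-- the set of coordinates that are on -/
def onSet (y : E → Bool) : Finset E := univ.filter (fun e => y e = true)

/-- hypercontractive base `2 / sqrt (p (1-p)) ≥ 4` -/
noncomputable def bb (p : ℝ) : ℝ := 2 / Real.sqrt (p * (1 - p))

end basic

section hyp

/-- the possible edges: `r`-subsets of `Fin n` -/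
abbrev Edge (n r : ℕ) : Type := {e : Finset (Fin n) // e.card = r}

/-- the action of a vertex permutation on edges -/
def pe {n r : ℕ} (σ : Equiv.Perm (Fin n)) : Equiv.Perm (Edge n r) where
  toFun e := ⟨e.1.map σ.toEmbedding, by rw [Finset.card_map]; exact e.2⟩
  invFun e := ⟨e.1.map σ.symm.toEmbedding, by rw [Finset.card_map]; exact e.2⟩
  left_inv e := by
    apply Subtype.ext
    ext a
    simp
  right_inv e := by
    apply Subtype.ext
    ext a
    simp

/-- vertices touched by a set of edges -/
def verts {n r : ℕ} (T : Finset (Edge n r)) : Finset (Fin n) := T.biUnion (fun e => e.1)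

/-- probability of `P` under the Bernoulli(p) measure -/
noncomputable def mu {n r : ℕ} (p : ℝ) (P : Set (Edge n r → Bool)) : ℝ :=
  ex p (Set.indicator P (fun _ => 1))

end hyp

end Vale.Agent.FK
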