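import Vale.Agent.FK.Scale
import Vale.Agent.FK.Arith

/-!
# P063: the influence bound (choice of parameters)
-/

namespace Vale.Agent.FK

open Finset

/-- integer root -/
theorem exists_root (r s : ℕ) (hr : 1 ≤ r) : ∃ v : ℕ, v ^ r ≤ s ∧ s < (v + 1) ^ r := by
  classical
  have hex : ∃ m : ℕ, s < (m + 1) ^ r :=
    ⟨s, lt_of_lt_of_le (Nat.lt_succ_self s) (Nat.le_self_pow (by omega) _)⟩
  refine ⟨Nat.find hex, ?_, Nat.find_spec hex⟩
  rcases Nat.eq_zero_or_pos (Nat.find hex) with h | h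
  · rw [h, zero_pow (by omega)]; exact Nat.zero_le _
  · have h2 := Nat.find_min hex (m := Nat.find hex - 1) (by omega)
    rw [Nat.sub_add_cancel h] at h2
    exact not_lt.1 h2

/-- lower bound for the binomial coefficient -/
theorem choose_lower (r n v m : ℕ) (hr : 1 ≤ r) (hn : (512 * r) ^ 4 ≤ n) (hv : 1 ≤ v)
    (hvl : (v : ℝ) ≤ Real.log n) (hvm : v ≤ m) (hm : m ≤ r * (32 * (v + 1))) :
    Real.exp (v * Real.log n / 2) ≤ n.choose m := by
  have hn1 : 1 ≤ n := le_trans (Nat.one_le_pow _ _ (by omega)) hn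
  have hn0 : (0 : ℝ) < n := by exact_mod_cast hn1
  set l := Real.log n with hl
  set y := Real.exp (l / 4) with hy
  have hy0 : 0 < y := Real.exp_pos _
  have hy4 : y ^ 4 = n := by
    rw [hy, ← Real.exp_nat_mul]
    have : ((4 : ℕ) : ℝ) * (l / 4) = l := by push_cast; ring
    rw [this, hl, Real.exp_log hn0]
  have hy2 : y ^ 2 = Real.exp (l / 2) := by
    rw [hy, ← Real.exp_nat_mul]
    congr 1; push_cast; ring
  have hly : l ≤ 4 * y := by
    have := Real.add_one_le_exp (l / 4)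
    linarith
  have hyr : (512 * r : ℝ) ≤ y := by
    by_contra hcon
    push Not at hcon
    have h1 : y ^ 4 < (512 * r : ℝ) ^ 4 := pow_lt_pow_left₀ hcon hy0.le (by norm_num)
    have h2 : ((512 * r : ℝ)) ^ 4 ≤ n := by exact_mod_cast hn
    linarith
  have hm0 : 1 ≤ m := hv.trans hvm
  have hmR : (m : ℝ) ≤ 64 * r * v := by
    have h1 : m ≤ 64 * r * v := by
      calc m ≤ r * (32 * (v + 1)) := hm
        _ ≤ r * (32 * (v + v)) := by gcongr
        _ = 64 * r * v := by ring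
    exact_mod_cast h1
  have hr0 : (0 : ℝ) ≤ r := Nat.cast_nonneg _
  have hmy : (m : ℝ) ≤ 256 * r * y := by
    have : (64 * r : ℝ) * v ≤ 64 * r * (4 * y) :=
      mul_le_mul_of_nonneg_left (hvl.trans hly) (by positivity)
    linarith
  have hy1 : 1 ≤ y := by
    have : (1 : ℝ) ≤ r := by exact_mod_cast hr
    linarith
  have hkey : (m : ℝ) * (y ^ 2 + 1) ≤ n := by
    calc (m : ℝ) * (y ^ 2 + 1) ≤ 256 * r * y * (y ^ 2 + 1) :=
          mul_le_mul_of_nonneg_right hmy (by positivity)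
      _ ≤ 256 * r * y * (y ^ 2 + y ^ 2) := by
          have : 1 ≤ y ^ 2 := one_le_pow₀ hy1
          gcongr
      _ = 512 * r * y ^ 3 := by ring
      _ ≤ y * y ^ 3 := mul_le_mul_of_nonneg_right hyr (by positivity)
      _ = n := by rw [← hy4]; ring
  have hmn : m ≤ n := by
    have : (m : ℝ) ≤ n := by
      have : (m : ℝ) * 1 ≤ m * (y ^ 2 + 1) :=
        mul_le_mul_of_nonneg_left (by nlinarith [sq_nonneg y]) (Nat.cast_nonneg _)
      linarith
    exact_mod_cast this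
  have hcast : ((n + 1 - m : ℕ) : ℝ) = n + 1 - m := by
    rw [Nat.cast_sub (by omega)]; push_cast; ring
  have hbase : (m : ℝ) * y ^ 2 ≤ ((n + 1 - m : ℕ) : ℝ) := by
    rw [hcast]; linarith
  have hpow := Nat.pow_le_choose m n (α := ℝ)
  have hfac : (m.factorial : ℝ) ≤ (m : ℝ) ^ m := by exact_mod_cast Nat.factorial_le_pow m
  have hfac0 : (0 : ℝ) < m.factorial := by exact_mod_cast Nat.factorial_pos m
  calc Real.exp (v * l / 2) ≤ Real.exp (m * (l / 2)) := by
        apply Real.exp_le_exp.2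
        have hvm' : (v : ℝ) ≤ m := by exact_mod_cast hvm
        have hl0 : 0 ≤ l := le_trans (Nat.cast_nonneg _) hvl
        nlinarith
    _ = (y ^ 2) ^ m := by rw [hy2, ← Real.exp_nat_mul]
    _ = ((m : ℝ) * y ^ 2) ^ m / (m : ℝ) ^ m := by
        have : (m : ℝ) ^ m ≠ 0 := pow_ne_zero _ (by positivity)
        rw [mul_pow, mul_div_cancel_left₀ _ this]
    _ ≤ ((n + 1 - m : ℕ) : ℝ) ^ m / m.factorial := by
        apply div_le_div₀ (by positivity) _ hfac0 hfac
        exact pow_le_pow_left₀ (by positivity) hbase m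
    _ ≤ n.choose m := hpow

theorem one_le_log_bb {p : ℝ} (h0 : 0 < p) (h1 : p < 1) : 1 ≤ Real.log (bb p) := by
  have hb := bb_ge h0 h1
  rw [Real.le_log_iff_exp_le (by linarith)]
  linarith [Real.exp_one_lt_d9]

theorem eventually_large (η logK : ℝ) (N : ℕ) :
    ∃ n₀ : ℕ, ∀ n : ℕ, n₀ ≤ n → N ≤ n ∧ 1 ≤ Real.log n ∧ 192 / η ≤ Real.log n ∧
      70 + 64 * logK + 1091 * Real.log (Real.log n) ≤ Real.log n / 8 := by
  have h1 : Filter.Tendsto (fun n : ℕ => Real.log (n : ℝ)) Filter.atTop Filter.atTop :=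
    Real.tendsto_log_atTop.comp tendsto_natCast_atTop_atTop
  have h2 : ∀ᶠ x : ℝ in Filter.atTop, 70 + 64 * logK + 1091 * Real.log x ≤ x / 8 := by
    have h3 := Real.isLittleO_log_id_atTop.def (c := 1 / 17456) (by norm_num)
    have h4 : ∀ᶠ x : ℝ in Filter.atTop, 70 + 64 * logK ≤ x / 16 := by
      have : ∀ᶠ x : ℝ in Filter.atTop, 16 * (70 + 64 * logK) ≤ x := Filter.eventually_ge_atTop _
      filter_upwards [this] with x hx
      linarith
    filter_upwards [h3, h4, Filter.eventually_ge_atTop (1 : ℝ)] with x hx hx2 hx3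
    rw [id, Real.norm_of_nonneg (Real.log_nonneg hx3), Real.norm_of_nonneg (by linarith)] at hx
    linarith
  have h5 : ∀ᶠ n : ℕ in Filter.atTop, N ≤ n ∧ 1 ≤ Real.log n ∧ 192 / η ≤ Real.log n ∧
      70 + 64 * logK + 1091 * Real.log (Real.log n) ≤ Real.log n / 8 := by
    filter_upwards [Filter.eventually_ge_atTop N, h1.eventually (Filter.eventually_ge_atTop 1),
      h1.eventually (Filter.eventually_ge_atTop (192 / η)), h1.eventually h2] with n a b c d
    exact ⟨a, b, c, d⟩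
  exact Filter.eventually_atTop.1 h5

/-- the spectral mass at each dyadic scale below the critical one is small -/
theorem mass_bound (r : ℕ) (hr : 2 ≤ r) (η : ℝ) (hη : 0 < η) :
    ∃ c1 : ℝ, 0 < c1 ∧ c1 ≤ 1 ∧ ∃ n₀ : ℕ, ∀ n : ℕ, n₀ ≤ n → 1 ≤ Real.log n ∧
      ∀ p : ℝ, 0 < p → p < 1 →
      ∀ f : (Edge n r → Bool) → ℝ, (∀ x, f x = 0 ∨ f x = 1) →
      (∀ (σ : Equiv.Perm (Fin n)) (x : Edge n r → Bool), f (fun e => x (pe σ e)) = f x) →
      infl p f ≤ Real.log n ^ 2 →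
      ∀ s : ℕ, 1 ≤ s →
      (s : ℝ) < (c1 * Real.log n / Real.log (bb p)) ^ ((r : ℝ) / ((r : ℝ) - 1)) →
      ∑ S ∈ univ.filter (fun S : Finset (Edge n r) => s ≤ S.card ∧ S.card < 2 * s),
        (hat p f S) ^ 2 ≤ η / (4 * s) := by
  set M : ℝ := max 0 (Real.log (128 / η)) with hMdef
  have hM0 : 0 ≤ M := le_max_left _ _
  have hM : 128 / η ≤ Real.exp M := by
    calc 128 / η = Real.exp (Real.log (128 / η)) := (Real.exp_log (by positivity)).symm
      _ ≤ Real.exp M := Real.exp_le_exp.2 (le_max_right _ _)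
  set K : ℕ := ⌈4 * (23 + (r : ℝ) + M)⌉₊ with hKdef
  have hK : 4 * (23 + (r : ℝ) + M) ≤ K := Nat.le_ceil _
  have hr0 : (0 : ℝ) ≤ r := Nat.cast_nonneg _
  have hKR : (92 : ℝ) ≤ K := by linarith
  have hK2 : 92 ≤ K := by exact_mod_cast hKR
  set c1 : ℝ := 1 / (4 * (2 ^ (r + 1) * K + 8192)) with hc1def
  have hden : (0 : ℝ) < 2 ^ (r + 1) * K + 8192 := by positivity
  have hc10 : 0 < c1 := by rw [hc1def]; positivity
  have hc11 : c1 ≤ 1 := by
    rw [hc1def, div_le_one (by positivity)]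
    have : (0 : ℝ) ≤ 2 ^ (r + 1) * K := by positivity
    linarith
  have hc1 : (2 ^ (r + 1) * (K : ℝ) + 8192) * c1 ≤ 1 / 4 := by
    rw [hc1def]
    apply le_of_eq
    field_simp
  obtain ⟨n₀, hn₀⟩ := eventually_large η (Real.log K) ((512 * r) ^ 4)
  refine ⟨c1, hc10, hc11, n₀, fun n hn => ?_⟩
  obtain ⟨hn1, hl1, hl2, hl3⟩ := hn₀ n hn
  refine ⟨hl1, fun p hp0 hp1 f hf hsym hI s hs hsX => ?_⟩
  set l := Real.log n with hl
  set β := Real.log (bb p) with hβdef
  have hβ : 1 ≤ β := one_le_log_bb hp0 hp1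
  have hbb := bb_ge hp0 hp1
  have hb : bb p = Real.exp β := (Real.exp_log (by linarith)).symm
  set X := c1 * l / β with hX
  have hl0 : 0 < l := by linarith
  have hX0 : 0 < X := by rw [hX]; positivity
  have hXl : X ≤ l := by
    rw [hX, div_le_iff₀ (by linarith)]
    nlinarith
  obtain ⟨v, hv1, hv2⟩ := exists_root r s (by omega)
  have hv : 1 ≤ v := by
    by_contra hcon
    have h0 : v = 0 := by omega
    rw [h0] at hv2
    simp at hv2
    omega
  have hvR : (1 : ℝ) ≤ v := by exact_mod_cast hv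
  have hrR : (2 : ℝ) ≤ r := by exact_mod_cast hr
  set a := (r : ℝ) / ((r : ℝ) - 1) with ha
  have ha0 : 0 < a := by rw [ha]; apply div_pos <;> linarith
  have ha2 : a ≤ 2 := by rw [ha, div_le_iff₀ (by linarith)]; linarith
  have hvX : (v : ℝ) ^ (r - 1) ≤ X := by
    by_contra hcon
    push Not at hcon
    have h1 : X ^ a ≤ ((v : ℝ) ^ (r - 1)) ^ a := Real.rpow_le_rpow hX0.le hcon.le ha0.le
    have h2 : ((v : ℝ) ^ (r - 1)) ^ a = (v : ℝ) ^ r := by
      rw [← Real.rpow_natCast, ← Real.rpow_mul (by positivity)]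
      have : ((r - 1 : ℕ) : ℝ) * a = (r : ℝ) := by
        rw [ha, Nat.cast_sub (by omega)]
        have : (r : ℝ) - 1 ≠ 0 := by linarith
        push_cast
        field_simp
      rw [this, Real.rpow_natCast]
    have h3 : (v : ℝ) ^ r ≤ s := by exact_mod_cast hv1
    linarith
  have hy : β * (v : ℝ) ^ (r - 1) ≤ c1 * l := by
    have : β * X = c1 * l := by rw [hX]; field_simp
    rw [← this]
    exact mul_le_mul_of_nonneg_left hvX (by linarith)
  have hvl : (v : ℝ) ≤ l := by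
    calc (v : ℝ) = (v : ℝ) ^ 1 := by ring
      _ ≤ (v : ℝ) ^ (r - 1) := pow_le_pow_right₀ hvR (by omega)
      _ ≤ X := hvX
      _ ≤ l := hXl
  have hsl : (s : ℝ) ≤ l ^ 2 := by
    calc (s : ℝ) ≤ X ^ a := hsX.le
      _ ≤ l ^ a := Real.rpow_le_rpow hX0.le hXl ha0.le
      _ ≤ l ^ (2 : ℝ) := Real.rpow_le_rpow_of_exponent_le hl1 ha2
      _ = l ^ 2 := by rw [← Real.rpow_natCast]; norm_num
  have hsv : (s : ℝ) ≤ (2 * v) ^ r := by
    have h1 : s ≤ (2 * v) ^ r := by
      calc s ≤ (v + 1) ^ r := hv2.le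
        _ ≤ (2 * v) ^ r := Nat.pow_le_pow_left (by omega) r
    exact_mod_cast h1
  have hsR : (1 : ℝ) ≤ s := by exact_mod_cast hs
  have hs0 : (0 : ℝ) < s := by linarith
  have hscale := scale_ineq n r hr p hp0 hp1 f hf hsym s v (K * s) hs hv hv1
    (Nat.mul_le_mul_right s (by omega))
    (Real.exp (-(((32 * ((v : ℝ) + 1)) *
        (1 + 15 * Real.log l + 2 * (32 * ((v : ℝ) + 1)) * β) + 3 * Real.log l) / 2)))
    (Real.exp (-((32 * ((v : ℝ) + 1)) * β)) / l ^ 5) (l ^ 5)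
    (((K * s : ℕ) : ℝ) ^ (32 * (v + 1)) * Real.exp (-(v * l / 2)))
    (Real.exp_pos _) (by positivity) (by positivity)
    (by
      intro m hm1 hm2
      have hch := choose_lower r n v m (by omega) hn1 hv hvl hm1 hm2
      have h1 : Real.exp (-(v * l / 2)) * Real.exp (v * l / 2) = 1 := by
        rw [← Real.exp_add, neg_add_cancel, Real.exp_zero]
      have h2 : (0 : ℝ) ≤ ((K * s : ℕ) : ℝ) ^ (32 * (v + 1)) := by positivity
      calc ((K * s : ℕ) : ℝ) ^ (32 * (v + 1))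
          = ((K * s : ℕ) : ℝ) ^ (32 * (v + 1)) *
            (Real.exp (-(v * l / 2)) * Real.exp (v * l / 2)) := by rw [h1, mul_one]
        _ ≤ ((K * s : ℕ) : ℝ) ^ (32 * (v + 1)) *
            (Real.exp (-(v * l / 2)) * n.choose m) := by gcongr
        _ = _ := by ring)
    (arith_cond r K v s l β c1 (bb p) hr (by omega) hv hs hl1 hβ hb hy hc1 hc10.le hsv hsl hl3)
  have herr := arith_err v l β (bb p) (infl p f) hl1 hβ hb (infl_nonneg hp0.le hp1.le f) hI
  have htail := arith_tail r K v s η M (by omega) hs hv hη hM hM0 hK hv1 hv2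
  have h6 : 3 / l ^ 3 ≤ η / (64 * s) := by
    rw [div_le_div_iff₀ (by positivity) (by positivity)]
    have h7 : 192 ≤ η * l := by
      rw [div_le_iff₀ hη] at hl2; linarith
    calc 3 * (64 * (s : ℝ)) = 192 * s := by ring
      _ ≤ 192 * l ^ 2 := by linarith
      _ ≤ (η * l) * l ^ 2 := mul_le_mul_of_nonneg_right h7 (by positivity)
      _ = η * l ^ 3 := by ring
  have h8 : η / (64 * s) = (1 / 16) * (η / (4 * s)) := by field_simp; norm_num
  have h9 : η / (128 * s) = (1 / 32) * (η / (4 * s)) := by field_simp; norm_num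
  have h10 : 0 ≤ η / (4 * s) := by positivity
  rw [h8] at h6
  rw [h9] at htail
  linarith

end Vale.Agent.FK
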