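import Vale.Agent.FK.Final

/-!
# P063: the influence bound
-/

namespace Vale.Agent.FK

open Finset

/-- `X^a` is a lower bound for the total influence, via the spectrum -/
theorem spectrum_lower {E : Type} [Fintype E] [DecidableEq E] (A : Finset E → ℝ)
    (hA : ∀ S, 0 ≤ A S) (η t : ℝ) (hη : 0 < η) (ht : 0 ≤ t)
    (hvar : η ≤ ∑ S ∈ univ.filter (fun S : Finset E => 0 < S.card), A S)
    (hmass : ∀ s : ℕ, 1 ≤ s → (s : ℝ) < t →
      ∑ S ∈ univ.filter (fun S : Finset E => s ≤ S.card ∧ S.card < 2 * s), A S ≤ η / (4 * s)) :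
    t * (η / 2) ≤ ∑ S, (S.card : ℝ) * A S := by
  classical
  set F : Finset (Finset E) := univ.filter (fun S => 0 < S.card ∧ (S.card : ℝ) < t) with hF
  set G : Finset (Finset E) := univ.filter (fun S => 0 < S.card ∧ ¬ (S.card : ℝ) < t) with hG
  have hsplit : ∑ S ∈ univ.filter (fun S : Finset E => 0 < S.card), A S =
      ∑ S ∈ F, A S + ∑ S ∈ G, A S := by
    rw [← Finset.sum_filter_add_sum_filter_not (univ.filter (fun S : Finset E => 0 < S.card))
      (fun S => (S.card : ℝ) < t), Finset.filter_filter, Finset.filter_filter]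
  have hFsum : ∑ S ∈ F, A S ≤ η / 2 := by
    have hmaps : ∀ S ∈ F, Nat.log 2 S.card ∈ Finset.range (Fintype.card E + 1) := by
      intro S _
      rw [Finset.mem_range]
      have h1 : Nat.log 2 S.card ≤ S.card := Nat.log_le_self 2 _
      have h2 : S.card ≤ Fintype.card E := Finset.card_le_univ S
      omega
    rw [← Finset.sum_fiberwise_of_maps_to hmaps]
    have hj : ∀ j ∈ Finset.range (Fintype.card E + 1),
        ∑ S ∈ F.filter (fun S => Nat.log 2 S.card = j), A S ≤ η / 4 * (1 / 2) ^ j := by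
      intro j _
      have hpj : (0 : ℝ) < 2 ^ j := by positivity
      rcases (F.filter (fun S => Nat.log 2 S.card = j)).eq_empty_or_nonempty with he | hne
      · rw [he, Finset.sum_empty]; positivity
      · obtain ⟨S₀, hS₀⟩ := hne
        rw [Finset.mem_filter, hF, Finset.mem_filter] at hS₀
        obtain ⟨⟨_, h0, h1⟩, h2⟩ := hS₀
        have h3 : 2 ^ j ≤ S₀.card := by
          rw [← h2]; exact Nat.pow_log_le_self 2 (by omega)
        have h4 : ((2 ^ j : ℕ) : ℝ) < t := lt_of_le_of_lt (by exact_mod_cast h3) h1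
        have h5 := hmass (2 ^ j) Nat.one_le_two_pow h4
        have h6 : ∑ S ∈ F.filter (fun S => Nat.log 2 S.card = j), A S ≤
            ∑ S ∈ univ.filter (fun S : Finset E => 2 ^ j ≤ S.card ∧ S.card < 2 * 2 ^ j), A S := by
          refine Finset.sum_le_sum_of_subset_of_nonneg ?_ fun S _ _ => hA S
          intro S hS
          rw [Finset.mem_filter, hF, Finset.mem_filter] at hS
          obtain ⟨⟨_, g0, _⟩, g2⟩ := hS
          simp only [mem_filter, mem_univ, true_and]
          constructor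
          · rw [← g2]; exact Nat.pow_log_le_self 2 (by omega)
          · rw [← g2]
            have := Nat.lt_pow_succ_log_self (b := 2) (by norm_num) S.card
            rw [pow_succ] at this
            omega
        refine h6.trans (h5.trans (le_of_eq ?_))
        push_cast
        rw [one_div, inv_pow]
        field_simp
    calc ∑ j ∈ Finset.range (Fintype.card E + 1),
        ∑ S ∈ F.filter (fun S => Nat.log 2 S.card = j), A S
        ≤ ∑ j ∈ Finset.range (Fintype.card E + 1), η / 4 * (1 / 2) ^ j := Finset.sum_le_sum hj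
      _ = η / 4 * ∑ j ∈ Finset.range (Fintype.card E + 1), (1 / 2 : ℝ) ^ j := by
          rw [Finset.mul_sum]
      _ ≤ η / 4 * 2 := mul_le_mul_of_nonneg_left (sum_geometric_two_le _) (by positivity)
      _ = η / 2 := by ring
  have hGsum : η / 2 ≤ ∑ S ∈ G, A S := by linarith
  calc t * (η / 2) ≤ t * ∑ S ∈ G, A S := mul_le_mul_of_nonneg_left hGsum ht
    _ = ∑ S ∈ G, t * A S := by rw [Finset.mul_sum]
    _ ≤ ∑ S ∈ G, (S.card : ℝ) * A S := Finset.sum_le_sum fun S hS => by
        rw [hG, Finset.mem_filter] at hS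
        exact mul_le_mul_of_nonneg_right (not_lt.1 hS.2.2) (hA S)
    _ ≤ ∑ S, (S.card : ℝ) * A S :=
        Finset.sum_le_univ_sum_of_nonneg fun S => mul_nonneg (Nat.cast_nonneg _) (hA S)

/-- **Influence bound.** -/
theorem infl_lower (r : ℕ) (hr : 2 ≤ r) (η : ℝ) (hη : 0 < η) :
    ∃ c : ℝ, 0 < c ∧ ∃ n₀ : ℕ, ∀ n : ℕ, n₀ ≤ n → ∀ p : ℝ, 0 < p → p < 1 →
      ∀ f : (Edge n r → Bool) → ℝ, (∀ x, f x = 0 ∨ f x = 1) →
      (∀ (σ : Equiv.Perm (Fin n)) (x : Edge n r → Bool), f (fun e => x (pe σ e)) = f x) →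
      η ≤ ex p f * (1 - ex p f) →
      c * Real.log n ^ ((r : ℝ) / ((r : ℝ) - 1)) ≤ infl p f := by
  obtain ⟨c1, hc10, hc11, n₀, hn₀⟩ := mass_bound r hr η hη
  have hrR : (2 : ℝ) ≤ r := by exact_mod_cast hr
  set a := (r : ℝ) / ((r : ℝ) - 1) with ha
  have ha0 : 0 < a := by rw [ha]; apply div_pos <;> linarith
  have ha2 : a ≤ 2 := by rw [ha, div_le_iff₀ (by linarith)]; linarith
  refine ⟨min 1 (η / 8 * c1 ^ a), lt_min one_pos (by positivity), n₀,
    fun n hn p hp0 hp1 f hf hsym hvar => ?_⟩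
  obtain ⟨hl1, hmass⟩ := hn₀ n hn
  set l := Real.log n with hl
  have hl0 : 0 < l := by linarith
  have hla : 0 ≤ l ^ a := Real.rpow_nonneg hl0.le _
  rcases le_or_gt (infl p f) (l ^ 2) with hI | hI
  · have hm := hmass p hp0 hp1 f hf hsym hI
    set β := Real.log (bb p) with hβdef
    have hβ : 1 ≤ β := one_le_log_bb hp0 hp1
    have hβ0 : 0 < β := by linarith
    have hbb := bb_ge hp0 hp1
    set X := c1 * l / β with hX
    have hX0 : 0 < X := by rw [hX]; positivity
    have hpq : 0 < p * (1 - p) := mul_pos hp0 (by linarith)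
    have hff : ∀ x, (f x) ^ 2 = f x := by
      intro x; rcases hf x with h | h <;> rw [h] <;> norm_num
    have hvar' : η ≤ ∑ S ∈ univ.filter (fun S : Finset (Edge n r) => 0 < S.card),
        (hat p f S) ^ 2 := by
      have h1 := parseval p hp0 hp1 f
      simp only [hff] at h1
      rw [← Finset.sum_filter_add_sum_filter_not univ
        (fun S : Finset (Edge n r) => 0 < S.card)] at h1
      have h2 : ∑ S ∈ univ.filter (fun S : Finset (Edge n r) => ¬ 0 < S.card),
          (hat p f S) ^ 2 = (ex p f) ^ 2 := by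
        have : univ.filter (fun S : Finset (Edge n r) => ¬ 0 < S.card) = {∅} := by
          ext S
          simp
        rw [this, Finset.sum_singleton, hat_empty]
      rw [h2] at h1
      change _ = ex p f at h1
      nlinarith
    have hspec := spectrum_lower (fun S => (hat p f S) ^ 2) (fun S => sq_nonneg _) η (X ^ a) hη
      (Real.rpow_nonneg hX0.le _) hvar' hm
    rw [← infl_eq p hp0 hp1 f] at hspec
    -- compare
    have hβa : β ^ a ≤ 4 / (p * (1 - p)) := by
      calc β ^ a ≤ β ^ (2 : ℝ) := Real.rpow_le_rpow_of_exponent_le hβ ha2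
        _ = β ^ 2 := by rw [← Real.rpow_natCast]; norm_num
        _ ≤ (bb p) ^ 2 := pow_le_pow_left₀ hβ0.le (by
            have := Real.log_le_sub_one_of_pos (show 0 < bb p by linarith)
            linarith) 2
        _ = _ := bb_sq hp0 hp1
    have hXβ : (c1 * l) ^ a = X ^ a * β ^ a := by
      rw [← Real.mul_rpow hX0.le hβ0.le, hX]
      congr 1
      field_simp
    have hXa : 0 ≤ X ^ a := Real.rpow_nonneg hX0.le _
    have h1 : (c1 * l) ^ a * (p * (1 - p)) ≤ 4 * X ^ a := by
      rw [hXβ]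
      calc X ^ a * β ^ a * (p * (1 - p)) ≤ X ^ a * (4 / (p * (1 - p))) * (p * (1 - p)) := by
            gcongr
        _ = 4 * X ^ a := by rw [mul_assoc, div_mul_cancel₀ _ hpq.ne']; ring
    have h2 : η / 8 * (c1 * l) ^ a * (p * (1 - p)) ≤ infl p f * (p * (1 - p)) := by
      calc η / 8 * (c1 * l) ^ a * (p * (1 - p)) = η / 8 * ((c1 * l) ^ a * (p * (1 - p))) := by ring
        _ ≤ η / 8 * (4 * X ^ a) := mul_le_mul_of_nonneg_left h1 (by positivity)
        _ = X ^ a * (η / 2) := by ring
        _ ≤ p * (1 - p) * infl p f := hspec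
        _ = _ := by ring
    have h3 : η / 8 * (c1 * l) ^ a ≤ infl p f := le_of_mul_le_mul_right h2 hpq
    calc min 1 (η / 8 * c1 ^ a) * l ^ a ≤ η / 8 * c1 ^ a * l ^ a :=
          mul_le_mul_of_nonneg_right (min_le_right _ _) hla
      _ = η / 8 * (c1 * l) ^ a := by rw [Real.mul_rpow hc10.le hl0.le]; ring
      _ ≤ infl p f := h3
  · calc min 1 (η / 8 * c1 ^ a) * l ^ a ≤ 1 * l ^ a :=
          mul_le_mul_of_nonneg_right (min_le_left _ _) hla
      _ = l ^ a := one_mul _
      _ ≤ l ^ (2 : ℝ) := Real.rpow_le_rpow_of_exponent_le hl1 ha2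
      _ = l ^ 2 := by rw [← Real.rpow_natCast]; norm_num
      _ ≤ infl p f := hI.le

end Vale.Agent.FK
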