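import Vale.Agent.FK.Basic

/-!
# P063: (2→4) hypercontractivity for low degree functions, `p`-biased
-/

namespace Vale.Agent.FK

open Finset

variable {E : Type} [Fintype E] [DecidableEq E]

theorem ex_cs {p : ℝ} (h0 : 0 ≤ p) (h1 : p ≤ 1) (F G : (E → Bool) → ℝ) :
    (ex p (fun x => F x * G x)) ^ 2 ≤ ex p (fun x => (F x) ^ 2) * ex p (fun x => (G x) ^ 2) := by
  have h := Finset.sum_mul_sq_le_sq_mul_sq (univ : Finset (E → Bool))
    (fun x => Real.sqrt (wt p x) * F x) (fun x => Real.sqrt (wt p x) * G x)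
  have e1 : ∀ x : E → Bool, Real.sqrt (wt p x) * F x * (Real.sqrt (wt p x) * G x) =
      wt p x * (F x * G x) := by
    intro x
    have := Real.mul_self_sqrt (wt_nonneg h0 h1 x)
    calc Real.sqrt (wt p x) * F x * (Real.sqrt (wt p x) * G x)
        = (Real.sqrt (wt p x) * Real.sqrt (wt p x)) * (F x * G x) := by ring
      _ = _ := by rw [this]
  have e2 : ∀ (H : (E → Bool) → ℝ) (x : E → Bool), (Real.sqrt (wt p x) * H x) ^ 2 =
      wt p x * (H x) ^ 2 := by
    intro H x
    rw [mul_pow, Real.sq_sqrt (wt_nonneg h0 h1 x)]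
  simp only [e1, e2] at h
  exact h

omit [Fintype E] in
theorem chi_update (p : ℝ) {e : E} {S : Finset E} (he : e ∉ S) (x : E → Bool) (b : Bool) :
    chi p S (Function.update x e b) = chi p S x := by
  unfold chi
  refine Finset.prod_congr rfl fun e' he' => ?_
  rw [Function.update_of_ne (by rintro rfl; exact he he')]

/-- splitting off one coordinate -/
theorem split_coord (p : ℝ) (e : E) (a : Finset E → ℝ) (x : E → Bool) :
    ∑ S, a S * chi p S x =
      ∑ S, (if e ∈ S then 0 else a S) * chi p S x +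
        ch p (x e) * ∑ S, (if e ∈ S then 0 else a (insert e S)) * chi p S x := by
  have e1 : ∑ S, a S * chi p S x = ∑ S, (if e ∈ S then 0 else a S * chi p S x) +
      ∑ S, (if e ∈ S then a S * chi p S x else 0) := by
    rw [← Finset.sum_add_distrib]
    refine Finset.sum_congr rfl fun S _ => ?_
    split_ifs <;> ring
  have e2 : ∑ S, (if e ∈ S then a S * chi p S x else 0) =
      ch p (x e) * ∑ S, (if e ∈ S then 0 else a (insert e S)) * chi p S x := by
    rw [Finset.mul_sum, ← Finset.sum_filter]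
    have e3 : ∀ S : Finset E, ch p (x e) * ((if e ∈ S then 0 else a (insert e S)) * chi p S x) =
        if e ∉ S then a (insert e S) * (ch p (x e) * chi p S x) else 0 := by
      intro S
      by_cases h : e ∈ S <;> simp [h]
      ring
    simp only [e3]
    rw [← Finset.sum_filter]
    refine Finset.sum_nbij' (fun S => S.erase e) (fun U => insert e U) ?_ ?_ ?_ ?_ ?_
    · intro S _; simp
    · intro U _; simp
    · intro S hS; simp only [mem_filter, mem_univ, true_and] at hS; exact Finset.insert_erase hS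
    · intro U hU; simp only [mem_filter, mem_univ, true_and] at hU; exact Finset.erase_insert hU
    · intro S hS
      simp only [mem_filter, mem_univ, true_and] at hS
      rw [Finset.insert_erase hS]
      congr 1
      unfold chi
      exact (Finset.mul_prod_erase S _ hS).symm
  rw [e1, e2]
  congr 1
  refine Finset.sum_congr rfl fun S _ => ?_
  split_ifs <;> simp

theorem arith_step (b t A B κ U V W Z m3 m4 : ℝ) (hb : 4 ≤ b) (hκ : b ^ 2 = 4 * κ)
    (ht : 0 ≤ t) (hA : 0 ≤ A) (hB : 0 ≤ B)
    (hU : U ≤ (b * t * A) ^ 2) (hV0 : 0 ≤ V) (hV : V ≤ (t * B) ^ 2) (hW : W ^ 2 ≤ U * V) (hU0 : 0 ≤ U)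
    (hm3 : m3 ^ 2 ≤ κ) (hm4 : m4 ≤ κ) (hZ : 4 * Z * m3 ≤ 2 * W + 2 * m3 ^ 2 * V) :
    U + 6 * W + 4 * Z * m3 + V * m4 ≤ (b * t * (A + B)) ^ 2 := by
  have hWle : W ≤ b * t * A * (t * B) := by
    have h0 : 0 ≤ b * t * A * (t * B) := by positivity
    refine le_trans (le_abs_self W) (abs_le_of_sq_le_sq ?_ h0)
    calc W ^ 2 ≤ U * V := hW
      _ ≤ (b * t * A) ^ 2 * (t * B) ^ 2 := mul_le_mul hU hV hV0 (by positivity)
      _ = _ := by ring
  have hκ0 : 0 ≤ κ := by nlinarith
  have h1 : V * m4 ≤ κ * V := by nlinarith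
  have h2 : m3 ^ 2 * V ≤ κ * V := mul_le_mul_of_nonneg_right hm3 hV0
  have h3 : κ * V ≤ κ * (t * B) ^ 2 := mul_le_mul_of_nonneg_left hV hκ0
  have h4 : 4 * κ * (t * B) ^ 2 = b ^ 2 * (t * B) ^ 2 := by rw [← hκ]
  have h5 : 0 ≤ κ * (t * B) ^ 2 := by positivity
  have h6 : 8 * (b * t * A * (t * B)) ≤ 2 * b * (b * t * A * (t * B)) := by
    have : 0 ≤ b * t * A * (t * B) := by positivity
    nlinarith
  nlinarith

theorem hyper4_aux (p : ℝ) (hp0 : 0 < p) (hp1 : p < 1) (A : Finset E) :
    ∀ (D : ℕ) (a : Finset E → ℝ), (∀ S, a S ≠ 0 → S ⊆ A ∧ S.card ≤ D) →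
    ex p (fun x => (∑ S, a S * chi p S x) ^ 4)
      ≤ (bb p ^ D * ex p (fun x => (∑ S, a S * chi p S x) ^ 2)) ^ 2 := by
  have hb := bb_ge hp0 hp1
  -- the constant case
  have hconst : ∀ (D : ℕ) (a : Finset E → ℝ), (∀ S, a S ≠ 0 → S = ∅) →
      ex p (fun x => (∑ S, a S * chi p S x) ^ 4)
        ≤ (bb p ^ D * ex p (fun x => (∑ S, a S * chi p S x) ^ 2)) ^ 2 := by
    intro D a ha
    have e : ∀ x : E → Bool, ∑ S, a S * chi p S x = a ∅ := by
      intro x
      rw [Finset.sum_eq_single ∅]
      · simp [chi]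
      · intro S _ hS
        have : a S = 0 := by
          by_contra h
          exact hS (ha S h)
        rw [this, zero_mul]
      · intro h; exact absurd (Finset.mem_univ _) h
    simp only [e, ex_const]
    have h1 : 1 ≤ bb p ^ D := one_le_pow₀ (by linarith)
    have h2 : 0 ≤ a ∅ ^ 2 := sq_nonneg _
    have h3 : a ∅ ^ 2 ≤ bb p ^ D * a ∅ ^ 2 := by nlinarith
    calc a ∅ ^ 4 = (a ∅ ^ 2) ^ 2 := by ring
      _ ≤ _ := pow_le_pow_left₀ h2 h3 2
  induction A using Finset.induction_on with
  | empty =>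
    intro D a ha
    exact hconst D a fun S hS => Finset.subset_empty.1 (ha S hS).1
  | insert e A heA ih =>
    intro D a ha
    cases D with
    | zero =>
      exact hconst 0 a fun S hS => Finset.card_eq_zero.1 (Nat.le_zero.1 (ha S hS).2)
    | succ D =>
      set a0 : Finset E → ℝ := fun S => if e ∈ S then 0 else a S with ha0
      set a1 : Finset E → ℝ := fun S => if e ∈ S then 0 else a (insert e S) with ha1
      set u : (E → Bool) → ℝ := fun x => ∑ S, a0 S * chi p S x with hu
      set v : (E → Bool) → ℝ := fun x => ∑ S, a1 S * chi p S x with hv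
      have hsplit : ∀ x, ∑ S, a S * chi p S x = u x + ch p (x e) * v x := fun x =>
        split_coord p e a x
      have hiu : ∀ x b, u (Function.update x e b) = u x := by
        intro x b
        refine Finset.sum_congr rfl fun S _ => ?_
        by_cases h : e ∈ S
        · simp [ha0, h]
        · rw [chi_update p h]
      have hiv : ∀ x b, v (Function.update x e b) = v x := by
        intro x b
        refine Finset.sum_congr rfl fun S _ => ?_
        by_cases h : e ∈ S
        · simp [ha1, h]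
        · rw [chi_update p h]
      have ih0 := ih (D + 1) a0 (by
        intro S hS
        simp only [ha0] at hS
        split_ifs at hS with h
        · exact absurd rfl hS
        · obtain ⟨h1, h2⟩ := ha S hS
          exact ⟨(Finset.subset_insert_iff_of_notMem h).1 h1, h2⟩)
      have ih1 := ih D a1 (by
        intro S hS
        simp only [ha1] at hS
        split_ifs at hS with h
        · exact absurd rfl hS
        · obtain ⟨h1, h2⟩ := ha _ hS
          refine ⟨fun z hz => ?_, ?_⟩
          · have := h1 (Finset.mem_insert_of_mem hz)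
            rcases Finset.mem_insert.1 this with h' | h'
            · exact absurd (h' ▸ hz) h
            · exact h'
          · rw [Finset.card_insert_of_notMem h] at h2
            omega)
      change ex p (fun x => (u x) ^ 4) ≤ (bb p ^ (D + 1) * ex p (fun x => (u x) ^ 2)) ^ 2 at ih0
      change ex p (fun x => (v x) ^ 4) ≤ (bb p ^ D * ex p (fun x => (v x) ^ 2)) ^ 2 at ih1
      have h2 : ex p (fun x => (∑ S, a S * chi p S x) ^ 2) =
          ex p (fun x => (u x) ^ 2) + ex p (fun x => (v x) ^ 2) := by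
        have e1 : ∀ x : E → Bool, (∑ S, a S * chi p S x) ^ 2 =
            (u x) ^ 2 + (2 * u x * v x) * ch p (x e) + (v x) ^ 2 * (ch p (x e)) ^ 2 := by
          intro x; rw [hsplit]; ring
        rw [ex_congr p e1, ex_add, ex_add,
          ex_indep p e (fun x => 2 * u x * v x) (ch p) (fun x b => by simp only [hiu, hiv]),
          ex_indep p e (fun x => (v x) ^ 2) (fun b => (ch p b) ^ 2)
            (fun x b => by simp only [hiv]), sum_ch, sum_ch2 hp0 hp1]
        ring
      have h4 : ex p (fun x => (∑ S, a S * chi p S x) ^ 4) =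
          ex p (fun x => (u x) ^ 4) + 6 * ex p (fun x => (u x) ^ 2 * (v x) ^ 2) +
            4 * ex p (fun x => u x * (v x) ^ 3) * (∑ b, bw p b * (ch p b) ^ 3) +
            ex p (fun x => (v x) ^ 4) * (∑ b, bw p b * (ch p b) ^ 4) := by
        have e1 : ∀ x : E → Bool, (∑ S, a S * chi p S x) ^ 4 =
            (u x) ^ 4 + (4 * (u x) ^ 3 * v x) * ch p (x e) +
              (6 * ((u x) ^ 2 * (v x) ^ 2)) * (ch p (x e)) ^ 2 +
              (4 * (u x * (v x) ^ 3)) * (ch p (x e)) ^ 3 + (v x) ^ 4 * (ch p (x e)) ^ 4 := by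
          intro x; rw [hsplit]; ring
        rw [ex_congr p e1, ex_add, ex_add, ex_add, ex_add,
          ex_indep p e (fun x => 4 * (u x) ^ 3 * v x) (ch p) (fun x b => by simp only [hiu, hiv]),
          ex_indep p e (fun x => 6 * ((u x) ^ 2 * (v x) ^ 2)) (fun b => (ch p b) ^ 2)
            (fun x b => by simp only [hiu, hiv]),
          ex_indep p e (fun x => 4 * (u x * (v x) ^ 3)) (fun b => (ch p b) ^ 3)
            (fun x b => by simp only [hiu, hiv]),
          ex_indep p e (fun x => (v x) ^ 4) (fun b => (ch p b) ^ 4)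
            (fun x b => by simp only [hiv]), sum_ch, sum_ch2 hp0 hp1, ex_mul_left, ex_mul_left]
        ring
      rw [h4, h2]
      have hcs : (ex p (fun x => (u x) ^ 2 * (v x) ^ 2)) ^ 2 ≤
          ex p (fun x => (u x) ^ 4) * ex p (fun x => (v x) ^ 4) := by
        have := ex_cs hp0.le hp1.le (fun x => (u x) ^ 2) (fun x => (v x) ^ 2)
        simp only [← pow_mul] at this
        exact this
      have hZ : 4 * ex p (fun x => u x * (v x) ^ 3) * (∑ b, bw p b * (ch p b) ^ 3) ≤
          2 * ex p (fun x => (u x) ^ 2 * (v x) ^ 2) +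
            2 * (∑ b, bw p b * (ch p b) ^ 3) ^ 2 * ex p (fun x => (v x) ^ 4) := by
        set m := ∑ b, bw p b * (ch p b) ^ 3
        have e1 : 4 * ex p (fun x => u x * (v x) ^ 3) * m =
            ex p (fun x => (4 * m) * (u x * (v x) ^ 3)) := by
          rw [ex_mul_left]; ring
        have e2 : 2 * ex p (fun x => (u x) ^ 2 * (v x) ^ 2) + 2 * m ^ 2 * ex p (fun x => (v x) ^ 4) =
            ex p (fun x => 2 * ((u x) ^ 2 * (v x) ^ 2) + (2 * m ^ 2) * (v x) ^ 4) := by
          rw [ex_add, ex_mul_left, ex_mul_left]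
        rw [e1, e2]
        refine ex_mono hp0.le hp1.le fun x => ?_
        nlinarith [sq_nonneg (u x * v x - m * (v x) ^ 2)]
      have hpw : bb p ^ (D + 1) = bb p * bb p ^ D := by rw [pow_succ]; ring
      rw [hpw] at ih0 ⊢
      have hkappa : bb p ^ 2 = 4 * (1 / (p * (1 - p))) := by rw [bb_sq hp0 hp1]; ring
      exact arith_step (bb p) (bb p ^ D) _ _ _ _ _ _ _ _ _ hb hkappa (by positivity)
        (ex_nonneg hp0.le hp1.le fun x => sq_nonneg _)
        (ex_nonneg hp0.le hp1.le fun x => sq_nonneg _) ih0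
        (ex_nonneg hp0.le hp1.le fun x => by positivity) ih1 hcs
        (ex_nonneg hp0.le hp1.le fun x => by positivity)
        (sum_ch3 hp0 hp1) (sum_ch4 hp0 hp1) hZ

theorem hyper4 (p : ℝ) (hp0 : 0 < p) (hp1 : p < 1) (D : ℕ) (a : Finset E → ℝ)
    (ha : ∀ S, D < S.card → a S = 0) :
    ex p (fun x => (∑ S, a S * chi p S x) ^ 4)
      ≤ (bb p ^ D * ex p (fun x => (∑ S, a S * chi p S x) ^ 2)) ^ 2 := by
  refine hyper4_aux p hp0 hp1 univ D a fun S hS => ⟨Finset.subset_univ _, ?_⟩
  by_contra h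
  exact hS (ha S (not_le.1 h))

end Vale.Agent.FK
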