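import Vale.Agent.FK.Basic

/-!
# P063: the orbit bound
-/

namespace Vale.Agent.FK

open Finset

variable {n r : ℕ}

theorem exists_perm_map_eq (A U : Finset (Fin n)) (h : A.card = U.card) :
    ∃ σ : Equiv.Perm (Fin n), A.map σ.toEmbedding = U := by
  classical
  let e : {x // x ∈ A} ≃ {x // x ∈ U} := Finset.equivOfCardEq h
  refine ⟨e.extendSubtype, ?_⟩
  refine Finset.eq_of_subset_of_card_le ?_ ?_
  · intro x hx
    rw [Finset.mem_map] at hx
    obtain ⟨y, hy, rfl⟩ := hx
    exact e.extendSubtype_mem y hy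
  · rw [Finset.card_map, h]

theorem verts_map (σ : Equiv.Perm (Fin n)) (T : Finset (Edge n r)) :
    verts (T.map (pe σ).toEmbedding) = (verts T).map σ.toEmbedding := by
  classical
  ext v
  simp only [verts, Finset.mem_biUnion, Finset.mem_map, Equiv.coe_toEmbedding]
  constructor
  · rintro ⟨e, ⟨e', he', rfl⟩, hv⟩
    have hv' : v ∈ e'.1.map σ.toEmbedding := hv
    rw [Finset.mem_map] at hv'
    obtain ⟨w, hw, hwv⟩ := hv'
    exact ⟨w, ⟨e', he', hw⟩, hwv⟩
  · rintro ⟨w, ⟨e', he', hw⟩, rfl⟩
    refine ⟨pe σ e', ⟨e', he', rfl⟩, ?_⟩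
    have : σ w ∈ e'.1.map σ.toEmbedding := Finset.mem_map.2 ⟨w, hw, rfl⟩
    exact this

theorem sum_above_map (a : Finset (Edge n r) → ℝ)
    (hsym : ∀ (σ : Equiv.Perm (Fin n)) (S : Finset (Edge n r)),
      a (S.map (pe σ).toEmbedding) = a S)
    (T : Finset (Edge n r)) (D : ℕ) (σ : Equiv.Perm (Fin n)) :
    ∑ S ∈ univ.filter (fun S => T.map (pe σ).toEmbedding ⊆ S ∧ S.card ≤ D), a S =
      ∑ S ∈ univ.filter (fun S => T ⊆ S ∧ S.card ≤ D), a S := by
  classical
  symm
  refine Finset.sum_equiv (pe σ).finsetCongr ?_ ?_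
  · intro S
    simp only [Finset.mem_filter, Finset.mem_univ, true_and, Equiv.finsetCongr_apply,
      Finset.card_map, Finset.map_subset_map]
  · intro S _
    rw [Equiv.finsetCongr_apply, hsym]

/-- Part O: the orbit of `T` under vertex permutations has at least `C(n, |verts T|)` elements,
each with the same sum, and a set `S` with `|S| ≤ D` has at most `D^{|T|}` subsets of size
`|T|`. -/
theorem orbit_bound (n r : ℕ) (a : Finset (Edge n r) → ℝ) (ha : ∀ S, 0 ≤ a S)
    (hsum : ∑ S, a S ≤ 1)
    (hsym : ∀ (σ : Equiv.Perm (Fin n)) (S : Finset (Edge n r)),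
      a (S.map (pe σ).toEmbedding) = a S)
    (T : Finset (Edge n r)) (D : ℕ) :
    (n.choose (verts T).card : ℝ) * ∑ S ∈ univ.filter (fun S => T ⊆ S ∧ S.card ≤ D), a S
      ≤ (D : ℝ) ^ T.card := by
  classical
  have hex : ∀ U : Finset (Fin n), ∃ σ : Equiv.Perm (Fin n),
      U.card = (verts T).card → (verts T).map σ.toEmbedding = U := by
    intro U
    by_cases h : U.card = (verts T).card
    · obtain ⟨σ, hσ⟩ := exists_perm_map_eq (verts T) U h.symm
      exact ⟨σ, fun _ => hσ⟩
    · exact ⟨1, fun h' => absurd h' h⟩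
  choose σ hσ using hex
  set P : Finset (Finset (Fin n)) := powersetCard (verts T).card univ with hP
  have hPcard : P.card = n.choose (verts T).card := by
    rw [hP, Finset.card_powersetCard, Finset.card_univ, Fintype.card_fin]
  let TU : Finset (Fin n) → Finset (Edge n r) := fun U => T.map (pe (σ U)).toEmbedding
  have hverts : ∀ U ∈ P, verts (TU U) = U := by
    intro U hU
    rw [hP, Finset.mem_powersetCard] at hU
    rw [verts_map]
    exact hσ U hU.2
  have hinj : Set.InjOn TU (P : Set (Finset (Fin n))) := by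
    intro U hU V hV h
    rw [← hverts U hU, ← hverts V hV, h]
  -- the count of `U` with `TU U ⊆ S`
  have hcount : ∀ S : Finset (Edge n r), S.card ≤ D →
      ((P.filter (fun U => TU U ⊆ S)).card : ℝ) ≤ (D : ℝ) ^ T.card := by
    intro S hS
    have h1 : (P.filter (fun U => TU U ⊆ S)).card ≤ (powersetCard T.card S).card := by
      refine Finset.card_le_card_of_injOn TU ?_ ?_
      · intro U hU
        rw [Finset.mem_coe, Finset.mem_filter] at hU
        rw [Finset.mem_coe, Finset.mem_powersetCard]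
        exact ⟨hU.2, Finset.card_map _⟩
      · intro U hU V hV h
        rw [Finset.mem_coe, Finset.mem_filter] at hU hV
        exact hinj hU.1 hV.1 h
    rw [Finset.card_powersetCard] at h1
    have h2 : S.card.choose T.card ≤ D ^ T.card :=
      (Nat.choose_le_pow _ _).trans (Nat.pow_le_pow_left hS _)
    exact_mod_cast h1.trans h2
  have hw : ∀ U ∈ P, ∑ S ∈ univ.filter (fun S => TU U ⊆ S ∧ S.card ≤ D), a S =
      ∑ S ∈ univ.filter (fun S => T ⊆ S ∧ S.card ≤ D), a S := by
    intro U _
    exact sum_above_map a hsym T D (σ U)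
  calc (n.choose (verts T).card : ℝ) * ∑ S ∈ univ.filter (fun S => T ⊆ S ∧ S.card ≤ D), a S
      = ∑ U ∈ P, ∑ S ∈ univ.filter (fun S => TU U ⊆ S ∧ S.card ≤ D), a S := by
        rw [Finset.sum_congr rfl hw, Finset.sum_const, hPcard, nsmul_eq_mul]
    _ = ∑ U ∈ P, ∑ S, (if TU U ⊆ S ∧ S.card ≤ D then a S else 0) := by
        refine Finset.sum_congr rfl fun U _ => ?_
        rw [Finset.sum_filter]
    _ = ∑ S, ∑ U ∈ P, (if TU U ⊆ S ∧ S.card ≤ D then a S else 0) := Finset.sum_comm
    _ ≤ ∑ S, a S * (D : ℝ) ^ T.card := by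
        refine Finset.sum_le_sum fun S _ => ?_
        by_cases hS : S.card ≤ D
        · have : ∀ U ∈ P, (if TU U ⊆ S ∧ S.card ≤ D then a S else 0) =
              (if TU U ⊆ S then a S else 0) := by
            intro U _
            simp [hS]
          rw [Finset.sum_congr rfl this, ← Finset.sum_filter, Finset.sum_const, nsmul_eq_mul,
            mul_comm]
          exact mul_le_mul_of_nonneg_left (hcount S hS) (ha S)
        · have : ∀ U ∈ P, (if TU U ⊆ S ∧ S.card ≤ D then a S else 0) = 0 := by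
            intro U _
            simp [hS]
          rw [Finset.sum_congr rfl this, Finset.sum_const_zero]
          exact mul_nonneg (ha S) (by positivity)
    _ = (∑ S, a S) * (D : ℝ) ^ T.card := by rw [Finset.sum_mul]
    _ ≤ 1 * (D : ℝ) ^ T.card := mul_le_mul_of_nonneg_right hsum (by positivity)
    _ = _ := one_mul _

end Vale.Agent.FK
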