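import Vale.Agent.FK.Basic

/-!
# P063, part G: Russo's formula and the threshold width
-/

namespace Vale.Agent.FK

open Finset

section russo

variable {E : Type} [Fintype E] [DecidableEq E]

/-- derivative of `bw p b` -/
noncomputable def sgb (b : Bool) : ℝ := if b = true then 1 else -1

theorem hasDerivAt_bw (p : ℝ) (b : Bool) : HasDerivAt (fun q => bw q b) (sgb b) p := by
  cases b
  · simpa [bw, sgb] using (hasDerivAt_id' p).const_sub 1
  · simpa [bw, sgb] using hasDerivAt_id' p

theorem hasDerivAt_ex {p : ℝ} (h0 : 0 < p) (h1 : p < 1) (f : (E → Bool) → ℝ) :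
    HasDerivAt (fun q => ex q f) (∑ e, ex p (fun x => del e f x)) p := by
  have hbw : ∀ b, bw p b ≠ 0 := by
    intro b; cases b
    · rw [bw_false]; linarith
    · rw [bw_true]; linarith
  have h2 : ∀ x : E → Bool, HasDerivAt (fun q => wt q x * f x)
      ((∑ e, (∏ e' ∈ univ.erase e, bw p (x e')) • sgb (x e)) * f x) p := fun x =>
    (HasDerivAt.fun_finsetProd (u := univ) (f := fun (e : E) (q : ℝ) => bw q (x e))
      (fun e _ => hasDerivAt_bw p (x e))).mul_const (f x)
  have h3 : HasDerivAt (fun q => ex q f)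
      (∑ x, (∑ e, (∏ e' ∈ univ.erase e, bw p (x e')) • sgb (x e)) * f x) p :=
    HasDerivAt.fun_sum fun x _ => h2 x
  have h4 : (∑ x, (∑ e, (∏ e' ∈ univ.erase e, bw p (x e')) • sgb (x e)) * f x) =
      ∑ e, ex p (fun x => del e f x) := by
    simp only [Finset.sum_mul]
    rw [Finset.sum_comm]
    refine Finset.sum_congr rfl fun e _ => ?_
    have h5 : ∀ x : E → Bool, (∏ e' ∈ univ.erase e, bw p (x e')) • sgb (x e) * f x =
        wt p x * ((sgb (x e) / bw p (x e)) * f x) := by
      intro x
      have h6 : wt p x = bw p (x e) * ∏ e' ∈ univ.erase e, bw p (x e') :=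
        (Finset.mul_prod_erase univ (fun e' => bw p (x e')) (Finset.mem_univ e)).symm
      rw [h6, smul_eq_mul]
      have := hbw (x e)
      field_simp
    simp only [h5]
    change ex p (fun x => (sgb (x e) / bw p (x e)) * f x) = _
    rw [← ex_resample p e]
    refine ex_congr p fun x => ?_
    rw [Fintype.sum_bool]
    simp only [Function.update_self]
    have ht := hbw true
    have hf := hbw false
    unfold del
    rw [show sgb true = 1 from rfl, show sgb false = -1 from rfl]
    field_simp
    ring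
  rw [h4] at h3
  exact h3

theorem continuous_ex (f : (E → Bool) → ℝ) : Continuous (fun q => ex q f) := by
  unfold ex wt
  refine continuous_finsetSum _ fun x _ => Continuous.mul ?_ continuous_const
  refine continuous_finsetProd _ fun e _ => ?_
  exact continuous_iff_continuousAt.2 fun p => (hasDerivAt_bw p (x e)).continuousAt

end russo

theorem width_le (n r : ℕ) (P : Set (Edge n r → Bool))
    (hinc : ∀ x y : Edge n r → Bool, (∀ e, x e = true → y e = true) → x ∈ P → y ∈ P)
    (hne : P.Nonempty) (_hnu : P ≠ Set.univ) (ε : ℝ) (h0 : 0 < ε) (h1 : ε < 1 / 2)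
    (c : ℝ) (hc : 0 < c)
    (h : ∀ p : ℝ, 0 < p → p < 1 → ε ≤ mu p P → mu p P ≤ 1 - ε →
      c ≤ infl p (Set.indicator P (fun _ => 1))) :
    sInf {p : ℝ | 0 ≤ p ∧ p ≤ 1 ∧ 1 - ε ≤ mu p P} - sInf {p : ℝ | 0 ≤ p ∧ p ≤ 1 ∧ ε ≤ mu p P}
      ≤ 1 / c := by
  classical
  set f : (Edge n r → Bool) → ℝ := Set.indicator P (fun _ => 1) with hf
  have hf01 : ∀ x, f x = 0 ∨ f x = 1 := by
    intro x
    by_cases hx : x ∈ P
    · right; rw [hf, Set.indicator_of_mem hx]
    · left; rw [hf, Set.indicator_of_notMem hx]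
  have hmono : ∀ x y : Edge n r → Bool, (∀ e, x e = true → y e = true) → f x ≤ f y := by
    intro x y hxy
    by_cases hx : x ∈ P
    · rw [hf, Set.indicator_of_mem hx, Set.indicator_of_mem (hinc x y hxy hx)]
    · rw [hf, Set.indicator_of_notMem hx]
      rcases hf01 y with h | h
      · rw [← hf, h]
      · rw [← hf, h]; exact zero_le_one
  have hdel : ∀ e x, del e f x = 0 ∨ del e f x = 1 := by
    intro e x
    have h2 : f (Function.update x e false) ≤ f (Function.update x e true) := by
      refine hmono _ _ fun e' he' => ?_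
      by_cases hee : e' = e
      · subst hee; rw [Function.update_self]
      · rw [Function.update_of_ne hee] at he' ⊢; exact he'
    unfold del
    rcases hf01 (Function.update x e true) with h3 | h3 <;>
      rcases hf01 (Function.update x e false) with h4 | h4
    · left; rw [h3, h4]; ring
    · exfalso; rw [h3, h4] at h2; linarith
    · right; rw [h3, h4]; ring
    · left; rw [h3, h4]; ring
  have hinfl : ∀ p, infl p f = ∑ e, ex p (fun x => del e f x) := by
    intro p
    unfold infl
    refine Finset.sum_congr rfl fun e _ => ex_congr p fun x => ?_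
    rcases hdel e x with h | h <;> rw [h] <;> norm_num
  have hder : ∀ p, 0 < p → p < 1 → HasDerivAt (fun q => mu q P) (infl p f) p := by
    intro p hp0 hp1
    rw [hinfl]
    exact hasDerivAt_ex hp0 hp1 f
  have hcont : Continuous (fun q => mu q P) := continuous_ex f
  have hinfl0 : ∀ p, 0 < p → p < 1 → 0 ≤ infl p f := by
    intro p hp0 hp1
    unfold infl
    exact Finset.sum_nonneg fun e _ => ex_nonneg hp0.le hp1.le fun x => sq_nonneg _
  have hMon : MonotoneOn (fun q => mu q P) (Set.Icc 0 1) := by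
    refine monotoneOn_of_deriv_nonneg (convex_Icc 0 1) hcont.continuousOn ?_ ?_
    · intro p hp
      rw [interior_Icc] at hp
      exact (hder p hp.1 hp.2).differentiableAt.differentiableWithinAt
    · intro p hp
      rw [interior_Icc] at hp
      rw [(hder p hp.1 hp.2).deriv]
      exact hinfl0 p hp.1 hp.2
  have hle1 : ∀ p, 0 ≤ p → p ≤ 1 → mu p P ≤ 1 := by
    intro p hp0 hp1
    calc mu p P = ex p f := rfl
      _ ≤ ex p (fun _ => (1 : ℝ)) := ex_mono hp0 hp1 fun x => by
          rcases hf01 x with h | h <;> rw [h]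
          exact zero_le_one
      _ = 1 := ex_const p 1
  have hge0 : ∀ p, 0 ≤ p → p ≤ 1 → 0 ≤ mu p P := by
    intro p hp0 hp1
    exact ex_nonneg hp0 hp1 fun x => by
      rcases hf01 x with h | h
      · rw [← hf, h]
      · rw [← hf, h]; exact zero_le_one
  have hmu1 : mu 1 P = 1 := by
    refine le_antisymm (hle1 1 zero_le_one le_rfl) ?_
    have hmem : (fun _ => true : Edge n r → Bool) ∈ P := by
      obtain ⟨x, hx⟩ := hne
      exact hinc x _ (fun e _ => rfl) hx
    have h5 : wt 1 (fun _ : Edge n r => true) * f (fun _ => true) = 1 := by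
      rw [hf, Set.indicator_of_mem hmem]
      simp [wt]
    calc (1 : ℝ) = _ := h5.symm
      _ ≤ ∑ x, wt 1 x * f x := Finset.single_le_sum (f := fun x => wt 1 x * f x)
          (fun x _ => mul_nonneg (wt_nonneg zero_le_one le_rfl x) (by
            rcases hf01 x with h | h
            · rw [h]
            · rw [h]; exact zero_le_one)) (Finset.mem_univ _)
  set A := {p : ℝ | 0 ≤ p ∧ p ≤ 1 ∧ ε ≤ mu p P} with hA
  set B := {p : ℝ | 0 ≤ p ∧ p ≤ 1 ∧ 1 - ε ≤ mu p P} with hB
  have hAne : A.Nonempty := ⟨1, zero_le_one, le_rfl, by rw [hmu1]; linarith⟩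
  have hBne : B.Nonempty := ⟨1, zero_le_one, le_rfl, by rw [hmu1]; linarith⟩
  have hAb : BddBelow A := ⟨0, fun p hp => hp.1⟩
  have hBb : BddBelow B := ⟨0, fun p hp => hp.1⟩
  have ha0 : 0 ≤ sInf A := le_csInf hAne fun p hp => hp.1
  have hb1 : sInf B ≤ 1 := csInf_le hBb ⟨zero_le_one, le_rfl, by rw [hmu1]; linarith⟩
  by_contra hcon
  push Not at hcon
  have hc1 : 0 < 1 / c := by positivity
  have hab : sInf A < sInf B := by linarith
  have hkey := Convex.mul_sub_le_image_sub_of_le_deriv (convex_Icc (sInf A) (sInf B))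
    (f := fun q => mu q P) hcont.continuousOn (by
      intro p hp
      rw [interior_Icc] at hp
      exact (hder p (ha0.trans_lt hp.1) (hp.2.trans_le hb1)).differentiableAt.differentiableWithinAt)
    (C := c) (by
      intro p hp
      rw [interior_Icc] at hp
      have hp0 : 0 < p := ha0.trans_lt hp.1
      have hp1 : p < 1 := hp.2.trans_le hb1
      rw [(hder p hp0 hp1).deriv]
      refine h p hp0 hp1 ?_ ?_
      · obtain ⟨q, hq, hqp⟩ := exists_lt_of_csInf_lt hAne hp.1
        exact hq.2.2.trans (hMon ⟨hq.1, hq.2.1⟩ ⟨hp0.le, hp1.le⟩ hqp.le)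
      · by_contra hcon2
        push Not at hcon2
        exact absurd (csInf_le hBb ⟨hp0.le, hp1.le, hcon2.le⟩) (not_le.2 hp.2))
    (sInf A) (Set.left_mem_Icc.2 hab.le) (sInf B) (Set.right_mem_Icc.2 hab.le) hab.le
  have h6 := hle1 (sInf B) (ha0.trans hab.le) hb1
  have h7 := hge0 (sInf A) ha0 (hab.le.trans hb1)
  have h8 : 1 < c * (sInf B - sInf A) := by
    have := mul_lt_mul_of_pos_left hcon hc
    rwa [mul_one_div_cancel hc.ne'] at this
  have hkey' : c * (sInf B - sInf A) ≤ mu (sInf B) P - mu (sInf A) P := hkey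
  linarith

end Vale.Agent.FK
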