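import Vale.Agent.FK.Basic

/-!
# P063: random selection of edges (`sel_tail`, `sel_lower`)
-/

namespace Vale.Agent.FK

open Finset

section general
variable {E : Type} [Fintype E] [DecidableEq E]

/-- Part E2: Chernoff-type tail -/
theorem sel_tail (S : Finset E) (d : ℕ) (ρ : ℝ) (h0 : 0 ≤ ρ) (h1 : ρ ≤ 1) :
    ex ρ (fun y => if (S ∩ onSet y).card ≤ d then (1 : ℝ) else 0)
      ≤ 2 ^ d * (1 - ρ / 2) ^ S.card := by
  have key : ∀ y : E → Bool, (if (S ∩ onSet y).card ≤ d then (1 : ℝ) else 0)
      ≤ 2 ^ d * ∏ e, (if e ∈ S then (if y e = true then (1 / 2 : ℝ) else 1) else 1) := by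
    intro y
    have hprod : ∏ e, (if e ∈ S then (if y e = true then (1 / 2 : ℝ) else 1) else 1)
        = (1 / 2) ^ (S ∩ onSet y).card := by
      rw [← Finset.prod_filter, Finset.prod_ite, Finset.prod_const_one, mul_one,
        Finset.prod_const]
      congr 2
      ext e
      simp [onSet]
    rw [hprod]
    split_ifs with h
    · rw [one_div, inv_pow, ← div_eq_mul_inv, le_div_iff₀ (by positivity), one_mul]
      exact pow_le_pow_right₀ (by norm_num) h
    · positivity
  refine (ex_mono h0 h1 key).trans ?_
  rw [ex_mul_left]
  have := ex_prod (E := E) ρ (fun e b => if e ∈ S then (if b = true then (1 / 2 : ℝ) else 1) else 1)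
  rw [this]
  have h2 : ∀ e : E, ∑ b, bw ρ b * (if e ∈ S then (if b = true then (1 / 2 : ℝ) else 1) else 1)
      = if e ∈ S then 1 - ρ / 2 else 1 := by
    intro e
    rw [Fintype.sum_bool, bw_true, bw_false]
    by_cases he : e ∈ S
    · rw [if_pos he, if_pos he, if_pos he, if_pos rfl, if_neg Bool.false_ne_true]
      ring
    · rw [if_neg he, if_neg he, if_neg he]
      ring
  simp only [h2]
  rw [← Finset.prod_filter, Finset.prod_const]
  simp

theorem ex_one (f : (E → Bool) → ℝ) : ex 1 f = f (fun _ => true) := by
  unfold ex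
  rw [Finset.sum_eq_single (fun _ => true)]
  · simp [wt]
  · intro x _ hx
    have : ∃ e, x e = false := by
      by_contra hcon
      push Not at hcon
      exact hx (funext fun e => by simpa using hcon e)
    obtain ⟨e, he⟩ := this
    have : wt 1 x = 0 := by
      unfold wt
      exact Finset.prod_eq_zero (Finset.mem_univ e) (by rw [he]; simp)
    rw [this, zero_mul]
  · simp

end general

section hyp

variable {n r : ℕ}

/-- edges of `S` not inside `W` -/
def outE (S : Finset (Edge n r)) (W : Finset (Fin n)) : Finset (Edge n r) :=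
  S.filter (fun e => ¬ e.1 ⊆ W)

/-- the potential -/
noncomputable def pot (ρ : ℝ) (S : Finset (Edge n r)) (V : Finset (Fin n))
    (y : Edge n r → Bool) : ℝ :=
  (1 / 2) ^ (V ∪ verts (S ∩ onSet y)).card *
    (1 + ρ / 2) ^ (outE S (V ∪ verts (S ∩ onSet y))).card

theorem pot_nonneg {ρ : ℝ} (h0 : 0 ≤ ρ) (S : Finset (Edge n r)) (V : Finset (Fin n))
    (y : Edge n r → Bool) : 0 ≤ pot ρ S V y := by
  unfold pot
  positivity

theorem inter_onSet_update (S : Finset (Edge n r)) (e : Edge n r) (he : e ∉ S)
    (y : Edge n r → Bool) (b : Bool) :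
    S ∩ onSet (Function.update y e b) = S ∩ onSet y := by
  ext a
  simp only [onSet, Finset.mem_inter, Finset.mem_filter, Finset.mem_univ, true_and]
  refine and_congr_right fun ha => ?_
  have : a ≠ e := fun h => he (h ▸ ha)
  rw [Function.update_of_ne this]

theorem pot_update (ρ : ℝ) (S : Finset (Edge n r)) (V : Finset (Fin n)) (e : Edge n r)
    (he : e ∉ S) (y : Edge n r → Bool) (b : Bool) :
    pot ρ S V (Function.update y e b) = pot ρ S V y := by
  unfold pot
  rw [inter_onSet_update S e he]

theorem pot_le (ρ : ℝ) (h0 : 0 ≤ ρ) (h1 : ρ ≤ 1) (S : Finset (Edge n r)) :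
    ∀ V : Finset (Fin n), ex ρ (pot ρ S V) ≤ (1 / 2) ^ V.card := by
  classical
  induction S using Finset.induction_on with
  | empty =>
    intro V
    have : ∀ y, pot ρ (∅ : Finset (Edge n r)) V y = (1 / 2) ^ V.card := by
      intro y
      simp [pot, verts, outE]
    rw [ex_congr ρ this, ex_const]
  | insert e S he ih =>
    intro V
    by_cases heV : e.1 ⊆ V
    · have : ∀ y, pot ρ (insert e S) V y = pot ρ S V y := by
        intro y
        have hW : V ∪ verts (insert e S ∩ onSet y) = V ∪ verts (S ∩ onSet y) := by
          by_cases hy : y e = true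
          · have : insert e S ∩ onSet y = insert e (S ∩ onSet y) := by
              rw [Finset.insert_inter_of_mem]
              simp [onSet, hy]
            rw [this]
            unfold verts
            rw [Finset.biUnion_insert, ← Finset.union_assoc, Finset.union_eq_left.2 heV]
          · have : insert e S ∩ onSet y = S ∩ onSet y := by
              rw [Finset.insert_inter_of_notMem]
              simp [onSet, hy]
            rw [this]
        unfold pot
        rw [hW]
        have hO : outE (insert e S) (V ∪ verts (S ∩ onSet y)) = outE S (V ∪ verts (S ∩ onSet y)) := by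
          unfold outE
          rw [Finset.filter_insert, if_neg]
          push Not
          exact heV.trans Finset.subset_union_left
        rw [hO]
      rw [ex_congr ρ this]
      exact ih V
    · have hb : ∀ y, pot ρ (insert e S) V y ≤
          pot ρ S V y * (if y e = true then 0 else 1 + ρ / 2) +
          pot ρ S (V ∪ e.1) y * (if y e = true then 1 else 0) := by
        intro y
        by_cases hy : y e = true
        · have hI : insert e S ∩ onSet y = insert e (S ∩ onSet y) := by
            rw [Finset.insert_inter_of_mem]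
            simp [onSet, hy]
          have hW : V ∪ verts (insert e S ∩ onSet y) = V ∪ e.1 ∪ verts (S ∩ onSet y) := by
            rw [hI]
            unfold verts
            rw [Finset.biUnion_insert, ← Finset.union_assoc]
          rw [if_pos hy, if_pos hy, mul_zero, zero_add, mul_one]
          unfold pot
          rw [hW]
          have hO : outE (insert e S) (V ∪ e.1 ∪ verts (S ∩ onSet y)) =
              outE S (V ∪ e.1 ∪ verts (S ∩ onSet y)) := by
            unfold outE
            rw [Finset.filter_insert, if_neg]
            push Not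
            intro a ha
            simp [ha]
          rw [hO]
        · have hI : insert e S ∩ onSet y = S ∩ onSet y := by
            rw [Finset.insert_inter_of_notMem]
            simp [onSet, hy]
          rw [if_neg hy, if_neg hy, mul_zero, add_zero]
          unfold pot
          rw [hI]
          have hO : (outE (insert e S) (V ∪ verts (S ∩ onSet y))).card ≤
              (outE S (V ∪ verts (S ∩ onSet y))).card + 1 := by
            have hsub : outE (insert e S) (V ∪ verts (S ∩ onSet y)) ⊆
                insert e (outE S (V ∪ verts (S ∩ onSet y))) := by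
              intro a ha
              unfold outE at ha ⊢
              rw [Finset.mem_filter, Finset.mem_insert] at ha
              rw [Finset.mem_insert, Finset.mem_filter]
              tauto
            exact (Finset.card_le_card hsub).trans (Finset.card_insert_le _ _)
          have h2 : (1 + ρ / 2) ^ (outE (insert e S) (V ∪ verts (S ∩ onSet y))).card ≤
              (1 + ρ / 2) ^ ((outE S (V ∪ verts (S ∩ onSet y))).card + 1) :=
            pow_le_pow_right₀ (by linarith) hO
          rw [pow_succ] at h2
          calc _ ≤ (1 / 2 : ℝ) ^ (V ∪ verts (S ∩ onSet y)).card *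
                ((1 + ρ / 2) ^ (outE S (V ∪ verts (S ∩ onSet y))).card * (1 + ρ / 2)) :=
                mul_le_mul_of_nonneg_left h2 (by positivity)
            _ = _ := by ring
      refine (ex_mono h0 h1 hb).trans ?_
      rw [ex_add, ex_indep ρ e (pot ρ S V) (fun b => if b = true then 0 else 1 + ρ / 2)
          (fun x b => pot_update ρ S V e he x b),
        ex_indep ρ e (pot ρ S (V ∪ e.1)) (fun b => if b = true then 1 else 0)
          (fun x b => pot_update ρ S (V ∪ e.1) e he x b)]
      rw [Fintype.sum_bool, Fintype.sum_bool]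
      simp only [bw_true, bw_false, if_true, mul_zero, zero_add, mul_one, Bool.false_eq_true,
        if_false, add_zero]
      have i1 := ih V
      have i2 := ih (V ∪ e.1)
      have hc : V.card + 1 ≤ (V ∪ e.1).card := by
        have : V ⊂ V ∪ e.1 := by
          refine ⟨Finset.subset_union_left, fun h => heV ?_⟩
          exact Finset.subset_union_right.trans h
        exact Finset.card_lt_card this
      have i3 : ((1 : ℝ) / 2) ^ (V ∪ e.1).card ≤ (1 / 2) ^ (V.card + 1) :=
        pow_le_pow_of_le_one (by norm_num) (by norm_num) hc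
      rw [pow_succ] at i3
      have hp : (0 : ℝ) < (1 / 2) ^ V.card := by positivity
      calc ex ρ (pot ρ S V) * ((1 - ρ) * (1 + ρ / 2)) + ex ρ (pot ρ S (V ∪ e.1)) * ρ
          ≤ (1 / 2) ^ V.card * ((1 - ρ) * (1 + ρ / 2)) + ((1 / 2) ^ V.card * (1 / 2)) * ρ := by
            refine add_le_add (mul_le_mul_of_nonneg_right i1 ?_)
              (mul_le_mul_of_nonneg_right (i2.trans i3) h0)
            exact mul_nonneg (by linarith) (by linarith)
        _ = (1 / 2) ^ V.card * (1 - ρ ^ 2 / 2) := by ring
        _ ≤ (1 / 2) ^ V.card * 1 := by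
            refine mul_le_mul_of_nonneg_left ?_ hp.le
            nlinarith [sq_nonneg ρ]
        _ = _ := mul_one _

/-- few edges inside a small vertex set -/
theorem card_inside_le (hr : 2 ≤ r) (S : Finset (Edge n r)) (W : Finset (Fin n)) (v s : ℕ)
    (hW : W.card < v) (hvs : v ^ r ≤ s) :
    2 * (S.filter (fun e => e.1 ⊆ W)).card ≤ s := by
  classical
  have h1 : (S.filter (fun e => e.1 ⊆ W)).card ≤ W.card.choose r := by
    rw [← Finset.card_powersetCard]
    refine Finset.card_le_card_of_injOn (fun e => e.1) ?_ ?_
    · intro e he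
      rw [Finset.mem_coe, Finset.mem_filter] at he
      rw [Finset.mem_coe, Finset.mem_powersetCard]
      exact ⟨he.2, e.2⟩
    · intro a _ b _ h
      exact Subtype.ext h
  have h2 : W.card.choose r * r.factorial ≤ W.card ^ r := by
    rw [mul_comm, ← Nat.descFactorial_eq_factorial_mul_choose]
    exact Nat.descFactorial_le_pow _ _
  have h3 : 2 ≤ r.factorial := by
    calc 2 = Nat.factorial 2 := rfl
      _ ≤ _ := Nat.factorial_le hr
  have h4 : W.card ^ r ≤ v ^ r := Nat.pow_le_pow_left hW.le r
  calc 2 * (S.filter (fun e => e.1 ⊆ W)).card ≤ 2 * W.card.choose r := by omega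
    _ ≤ r.factorial * W.card.choose r := Nat.mul_le_mul_right _ h3
    _ = W.card.choose r * r.factorial := mul_comm _ _
    _ ≤ _ := h2.trans (h4.trans hvs)

theorem two_rpow_le {x : ℝ} (h0 : 0 ≤ x) (h1 : x ≤ 1) : (2 : ℝ) ^ x ≤ 1 + x := by
  have hx : (0 : ℝ) ≤ 1 - x := by linarith
  have hsum : 1 - x + x = 1 := by ring
  have h := (convexOn_rpow_left (b := 2) (by norm_num)).2 (Set.mem_univ (0 : ℝ))
    (Set.mem_univ (1 : ℝ)) hx h0 hsum
  simp only [smul_eq_mul, mul_zero, mul_one, zero_add, Real.rpow_zero, Real.rpow_one] at h
  linarith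

theorem ex_card (ρ : ℝ) (S : Finset (Edge n r)) :
    ex ρ (fun y => ((S ∩ onSet y).card : ℝ)) = ρ * S.card := by
  classical
  have h : ∀ y : Edge n r → Bool, ((S ∩ onSet y).card : ℝ) =
      ∑ e ∈ S, (if y e = true then (1 : ℝ) else 0) := by
    intro y
    rw [Finset.sum_ite, Finset.sum_const_zero, add_zero, Finset.sum_const, nsmul_eq_mul, mul_one]
    congr 2
    ext e
    simp [onSet]
  rw [ex_congr ρ h, ex_sum]
  have h2 : ∀ e : Edge n r, ex ρ (fun y : Edge n r → Bool => if y e = true then (1 : ℝ) else 0)
      = ρ := by
    intro e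
    have := ex_indep (E := Edge n r) ρ e (fun _ => 1) (fun b => if b = true then (1 : ℝ) else 0)
      (fun _ _ => rfl)
    simp only [one_mul, ex_const, Fintype.sum_bool, bw_true, bw_false, if_true, mul_one,
      Bool.false_eq_true, if_false, mul_zero, add_zero] at this
    exact this
  simp only [h2, Finset.sum_const, nsmul_eq_mul]
  ring

/-- Part E1: with probability at least `1/4` the random subset has few edges and touches many
vertices. -/
theorem sel_lower (n r : ℕ) (hr : 2 ≤ r) (s v : ℕ) (hs : 1 ≤ s) (hv : 1 ≤ v) (hvs : v ^ r ≤ s)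
    (S : Finset (Edge n r)) (h1 : s ≤ S.card) (h2 : S.card < 2 * s) (ρ : ℝ)
    (hρ : ρ = min 1 (4 * ((v : ℝ) + 1) / s)) :
    1 / 4 ≤ ex ρ (fun y => if (S ∩ onSet y).card ≤ 32 * (v + 1) ∧ v ≤ (verts (S ∩ onSet y)).card
      then (1 : ℝ) else 0) := by
  classical
  have hs0 : (0 : ℝ) < s := by exact_mod_cast hs
  have hv0 : (0 : ℝ) < v := by exact_mod_cast hv
  have hSr : (S.card : ℝ) < 2 * s := by exact_mod_cast h2
  rcases le_or_gt 1 (4 * ((v : ℝ) + 1) / s) with hc | hc
  · -- density one
    have hρ1 : ρ = 1 := by rw [hρ]; exact min_eq_left hc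
    rw [hρ1, ex_one]
    have hS : S ∩ onSet (fun _ : Edge n r => true) = S := by
      ext e; simp [onSet]
    rw [hS]
    have ha : S.card ≤ 32 * (v + 1) := by
      have : (s : ℝ) ≤ 4 * (v + 1) := by
        rwa [le_div_iff₀ hs0, one_mul] at hc
      have h3 : s ≤ 4 * (v + 1) := by exact_mod_cast this
      omega
    have hb : v ≤ (verts S).card := by
      by_contra hcon
      push Not at hcon
      have := card_inside_le hr S (verts S) v s hcon hvs
      have h3 : S.filter (fun e => e.1 ⊆ verts S) = S := by
        refine Finset.filter_true_of_mem fun e he => ?_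
        exact Finset.subset_biUnion_of_mem (fun e : Edge n r => e.1) he
      rw [h3] at this
      omega
    rw [if_pos ⟨ha, hb⟩]
    norm_num
  · have hρ1 : ρ = 4 * ((v : ℝ) + 1) / s := by rw [hρ]; exact min_eq_right hc.le
    have h0 : 0 ≤ ρ := by rw [hρ1]; positivity
    have hle : ρ ≤ 1 := by rw [hρ1]; exact hc.le
    have hρs : ρ * s = 4 * ((v : ℝ) + 1) := by rw [hρ1]; field_simp
    -- Markov for the number of edges
    have m1 : ex ρ (fun y => if 32 * (v + 1) < (S ∩ onSet y).card then (1 : ℝ) else 0) ≤ 1 / 4 := by
      have : ∀ y : Edge n r → Bool, (if 32 * (v + 1) < (S ∩ onSet y).card then (1 : ℝ) else 0) ≤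
          (1 / (32 * ((v : ℝ) + 1))) * ((S ∩ onSet y).card : ℝ) := by
        intro y
        split_ifs with h
        · rw [one_div, ← div_eq_inv_mul, le_div_iff₀ (by positivity), one_mul]
          exact_mod_cast h.le
        · positivity
      refine (ex_mono h0 hle this).trans ?_
      rw [ex_mul_left, ex_card, one_div, ← div_eq_inv_mul, div_le_iff₀ (by positivity)]
      nlinarith
    -- vertices
    have m2 : ex ρ (fun y => if (verts (S ∩ onSet y)).card < v then (1 : ℝ) else 0) ≤ 1 / 2 := by
      have hpt : ∀ y : Edge n r → Bool,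
          (if (verts (S ∩ onSet y)).card < v then (1 : ℝ) else 0) ≤ (1 / 2) * pot ρ S ∅ y := by
        intro y
        split_ifs with h
        · unfold pot
          rw [Finset.empty_union]
          set W := verts (S ∩ onSet y) with hWdef
          have hin := card_inside_le hr S W v s h hvs
          have hsplit : (S.filter (fun e => e.1 ⊆ W)).card + (outE S W).card = S.card :=
            Finset.card_filter_add_card_filter_not _
          have hout : s ≤ 2 * (outE S W).card := by omega
          set c := (outE S W).card with hcdef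
          have hcr : (s : ℝ) ≤ 2 * c := by exact_mod_cast hout
          have hpow : (2 : ℝ) ^ (v + 1) ≤ (1 + ρ / 2) ^ c := by
            calc (2 : ℝ) ^ (v + 1) = (2 : ℝ) ^ (((v + 1 : ℕ) : ℝ)) := by
                  rw [Real.rpow_natCast]
              _ ≤ (2 : ℝ) ^ ((ρ / 2) * (c : ℝ)) := by
                  refine Real.rpow_le_rpow_of_exponent_le (by norm_num) ?_
                  push_cast
                  nlinarith
              _ = ((2 : ℝ) ^ (ρ / 2)) ^ c := by
                  rw [Real.rpow_mul (by norm_num), Real.rpow_natCast]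
              _ ≤ (1 + ρ / 2) ^ c := by
                  refine pow_le_pow_left₀ (by positivity) ?_ c
                  exact two_rpow_le (by linarith) (by linarith)
          have hhalf : (1 / 2 : ℝ) ^ v ≤ (1 / 2) ^ W.card :=
            pow_le_pow_of_le_one (by norm_num) (by norm_num) h.le
          have hfin : (1 / 2 : ℝ) ^ v * (2 : ℝ) ^ (v + 1) = 2 := by
            rw [pow_succ, ← mul_assoc, ← mul_pow]
            norm_num
          have : (2 : ℝ) ≤ (1 / 2) ^ W.card * (1 + ρ / 2) ^ c := by
            calc (2 : ℝ) = (1 / 2 : ℝ) ^ v * (2 : ℝ) ^ (v + 1) := hfin.symm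
              _ ≤ _ := mul_le_mul hhalf hpow (by positivity) (by positivity)
          linarith
        · have := pot_nonneg h0 S ∅ y
          linarith
      refine (ex_mono h0 hle hpt).trans ?_
      rw [ex_mul_left]
      have := pot_le ρ h0 hle S ∅
      simp only [Finset.card_empty, pow_zero] at this
      linarith
    -- combine
    have hpt : ∀ y : Edge n r → Bool, (1 : ℝ) ≤
        ((if (S ∩ onSet y).card ≤ 32 * (v + 1) ∧ v ≤ (verts (S ∩ onSet y)).card
          then (1 : ℝ) else 0) +
        (if 32 * (v + 1) < (S ∩ onSet y).card then (1 : ℝ) else 0)) +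
        (if (verts (S ∩ onSet y)).card < v then (1 : ℝ) else 0) := by
      intro y
      by_cases ha : (S ∩ onSet y).card ≤ 32 * (v + 1)
      · by_cases hb : v ≤ (verts (S ∩ onSet y)).card
        · rw [if_pos ⟨ha, hb⟩]
          have p1 : (0 : ℝ) ≤ (if 32 * (v + 1) < (S ∩ onSet y).card then (1 : ℝ) else 0) := by
            split_ifs <;> norm_num
          have p2 : (0 : ℝ) ≤ (if (verts (S ∩ onSet y)).card < v then (1 : ℝ) else 0) := by
            split_ifs <;> norm_num
          linarith
        · push Not at hb
          rw [if_pos hb]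
          have p1 : (0 : ℝ) ≤ (if 32 * (v + 1) < (S ∩ onSet y).card then (1 : ℝ) else 0) := by
            split_ifs <;> norm_num
          have p2 : (0 : ℝ) ≤ (if (S ∩ onSet y).card ≤ 32 * (v + 1) ∧
              v ≤ (verts (S ∩ onSet y)).card then (1 : ℝ) else 0) := by
            split_ifs <;> norm_num
          linarith
      · push Not at ha
        rw [if_pos ha]
        have p1 : (0 : ℝ) ≤ (if (verts (S ∩ onSet y)).card < v then (1 : ℝ) else 0) := by
          split_ifs <;> norm_num
        have p2 : (0 : ℝ) ≤ (if (S ∩ onSet y).card ≤ 32 * (v + 1) ∧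
            v ≤ (verts (S ∩ onSet y)).card then (1 : ℝ) else 0) := by
          split_ifs <;> norm_num
        linarith
    have := ex_mono h0 hle hpt
    rw [ex_const, ex_add, ex_add] at this
    linarith

end hyp

end Vale.Agent.FK
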