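import Vale.Agent.FK.Core2
import Vale.Agent.FK.Sel
import Vale.Agent.FK.Orbit

/-!
# P063: averaging the core inequality over a random set `J`
-/

namespace Vale.Agent.FK

open Finset

/-! ### symmetry of the spectrum -/

section sym
variable {E : Type} [Fintype E] [DecidableEq E]

omit [DecidableEq E] in
theorem wt_comp (p : ℝ) (π : Equiv.Perm E) (x : E → Bool) : wt p (fun e => x (π e)) = wt p x := by
  unfold wt
  exact Equiv.prod_comp π (fun e => bw p (x e))

theorem ex_comp (p : ℝ) (π : Equiv.Perm E) (F : (E → Bool) → ℝ) :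
    ex p (fun x => F (fun e => x (π e))) = ex p F := by
  unfold ex
  let φ : (E → Bool) ≃ (E → Bool) := Equiv.arrowCongr π.symm (Equiv.refl Bool)
  refine Fintype.sum_equiv φ _ _ fun x => ?_
  have h : φ x = fun e => x (π e) := by
    funext e; simp [φ, Equiv.arrowCongr]
  rw [h, wt_comp]

theorem hat_perm (p : ℝ) (π : Equiv.Perm E) (f : (E → Bool) → ℝ)
    (hf : ∀ x : E → Bool, f (fun e => x (π e)) = f x) (S : Finset E) :
    hat p f (S.map π.toEmbedding) = hat p f S := by
  unfold hat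
  rw [← ex_comp p π (fun x => f x * chi p S x)]
  refine ex_congr p fun x => ?_
  rw [hf]
  congr 1
  unfold chi
  rw [Finset.prod_map]
  rfl

end sym

theorem verts_card_le {n r : ℕ} (T : Finset (Edge n r)) : (verts T).card ≤ r * T.card := by
  unfold verts
  refine Finset.card_biUnion_le.trans ?_
  rw [Finset.sum_congr rfl (fun e _ => e.2), Finset.sum_const, smul_eq_mul, mul_comm]

theorem scale_ineq (n r : ℕ) (hr : 2 ≤ r) (p : ℝ) (hp0 : 0 < p) (hp1 : p < 1)
    (f : (Edge n r → Bool) → ℝ) (hf : ∀ x, f x = 0 ∨ f x = 1)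
    (hsym : ∀ (σ : Equiv.Perm (Fin n)) (x : Edge n r → Bool), f (fun e => x (pe σ e)) = f x)
    (s v D : ℕ) (hs : 1 ≤ s) (hv : 1 ≤ v) (hvs : v ^ r ≤ s) (hD : 2 * s ≤ D)
    (θ δ L lam : ℝ) (hθ : 0 < θ) (hδ : 0 < δ) (hL : 0 < L)
    (hlam : ∀ m : ℕ, v ≤ m → m ≤ r * (32 * (v + 1)) →
      (D : ℝ) ^ (32 * (v + 1)) ≤ lam * n.choose m)
    (hcond : 256 * bb p ^ (2 * D) * lam ≤ θ ^ 2) :
    1 / 4 * ∑ S ∈ univ.filter (fun S : Finset (Edge n r) => s ≤ S.card ∧ S.card < 2 * s),
        (hat p f S) ^ 2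
      ≤ 2 * (bb p ^ (32 * (v + 1)) * δ * infl p f + θ ^ 2 * (L / δ ^ 2 + 1) ^ (32 * (v + 1))
          + infl p f / L)
        + 2 * (2 ^ (32 * (v + 1)) * (1 - min 1 (4 * ((v : ℝ) + 1) / s) / 2) ^ D) := by
  set d := 32 * (v + 1) with hd
  set ρ := min 1 (4 * ((v : ℝ) + 1) / s) with hρ
  have hρ0 : 0 ≤ ρ := le_min zero_le_one (by positivity)
  have hρ1 : ρ ≤ 1 := min_le_left _ _
  have htot : ∑ S : Finset (Edge n r), (hat p f S) ^ 2 ≤ 1 := by
    rw [parseval p hp0 hp1, ← ex_const (E := Edge n r) p 1]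
    refine ex_mono hp0.le hp1.le fun x => ?_
    rcases hf x with h | h <;> rw [h] <;> norm_num
  -- the family of sets `T`
  let Q : Finset (Edge n r) → Prop := fun T => T.card ≤ d ∧ v ≤ (verts T).card
  have : DecidablePred Q := fun T => inferInstanceAs (Decidable (_ ∧ _))
  set err := bb p ^ d * δ * infl p f + θ ^ 2 * (L / δ ^ 2 + 1) ^ d + infl p f / L with herr
  have hlamT : ∀ T, Q T → ∑ S ∈ univ.filter (fun S => T ⊆ S ∧ S.card ≤ D), (hat p f S) ^ 2 ≤ lam := by
    intro T hT
    have h1 := orbit_bound n r (fun S => (hat p f S) ^ 2) (fun S => sq_nonneg _) htot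
      (fun σ S => by rw [hat_perm p (pe σ) f (hsym σ)]) T D
    have h2 : (verts T).card ≤ r * d := (verts_card_le T).trans (Nat.mul_le_mul_left _ hT.1)
    have h3 := hlam (verts T).card hT.2 h2
    have hD1 : (1 : ℝ) ≤ D := by
      have : 1 ≤ D := by omega
      exact_mod_cast this
    have h4 : (D : ℝ) ^ T.card ≤ (D : ℝ) ^ d := pow_le_pow_right₀ hD1 hT.1
    have hc : (0 : ℝ) < n.choose (verts T).card := by
      by_contra hcon
      have h0 : (n.choose (verts T).card : ℝ) = 0 :=
        le_antisymm (not_lt.1 hcon) (Nat.cast_nonneg _)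
      rw [h0, mul_zero] at h3
      have : 0 < (D : ℝ) ^ d := by positivity
      linarith
    have h5 : (n.choose (verts T).card : ℝ) *
        ∑ S ∈ univ.filter (fun S => T ⊆ S ∧ S.card ≤ D), (hat p f S) ^ 2 ≤
        (n.choose (verts T).card : ℝ) * lam := by
      refine h1.trans (h4.trans (h3.trans (le_of_eq (mul_comm _ _))))
    exact le_of_mul_le_mul_left h5 hc
  have hJ : ∀ y : Edge n r → Bool,
      ∑ S : Finset (Edge n r), (if S.card ≤ D then (hat p f S) ^ 2 else 0) *
        (if Q (S ∩ onSet y) then 1 else 0) ≤ 2 * err +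
      2 * ∑ S : Finset (Edge n r), (if D < S.card then (hat p f S) ^ 2 else 0) *
        (if Q (S ∩ onSet y) then 1 else 0) := by
    intro y
    have h := core p hp0 hp1 f hf (onSet y) Q d D θ δ L lam hθ hδ hL (fun T hT => hT.1)
      hlamT hcond
    rw [Finset.sum_filter, Finset.sum_filter] at h
    have e1 : ∀ S : Finset (Edge n r), (if S.card ≤ D then (hat p f S) ^ 2 else 0) *
        (if Q (S ∩ onSet y) then (1 : ℝ) else 0) =
        if Q (S ∩ onSet y) ∧ S.card ≤ D then (hat p f S) ^ 2 else 0 := by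
      intro S
      by_cases h1 : S.card ≤ D <;> by_cases h2 : Q (S ∩ onSet y) <;> simp [h1, h2]
    have e2 : ∀ S : Finset (Edge n r), (if D < S.card then (hat p f S) ^ 2 else 0) *
        (if Q (S ∩ onSet y) then (1 : ℝ) else 0) =
        if Q (S ∩ onSet y) ∧ D < S.card then (hat p f S) ^ 2 else 0 := by
      intro S
      by_cases h1 : D < S.card <;> by_cases h2 : Q (S ∩ onSet y) <;> simp [h1, h2]
    simp only [e1, e2]
    exact h
  have hE := ex_mono hρ0 hρ1 hJ
  rw [ex_add, ex_const, ex_mul_left, ex_sum, ex_sum] at hE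
  simp only [ex_mul_left] at hE
  have hlow : 1 / 4 * ∑ S ∈ univ.filter (fun S : Finset (Edge n r) => s ≤ S.card ∧ S.card < 2 * s),
        (hat p f S) ^ 2 ≤
      ∑ S : Finset (Edge n r), (if S.card ≤ D then (hat p f S) ^ 2 else 0) *
        ex ρ (fun y => if Q (S ∩ onSet y) then 1 else 0) := by
    rw [Finset.mul_sum, Finset.sum_filter]
    refine Finset.sum_le_sum fun S _ => ?_
    have hnn : 0 ≤ ex ρ (fun y : Edge n r → Bool => if Q (S ∩ onSet y) then (1 : ℝ) else 0) :=
      ex_nonneg hρ0 hρ1 fun y => by split_ifs <;> norm_num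
    by_cases hS : s ≤ S.card ∧ S.card < 2 * s
    · have hsel : 1 / 4 ≤ ex ρ (fun y : Edge n r → Bool =>
          if Q (S ∩ onSet y) then (1 : ℝ) else 0) := by
        refine (sel_lower n r hr s v hs hv hvs S hS.1 hS.2 ρ hρ).trans
          (le_of_eq (ex_congr ρ fun y => ?_))
        by_cases h : Q (S ∩ onSet y)
        · have h' : (S ∩ onSet y).card ≤ 32 * (v + 1) ∧ v ≤ (verts (S ∩ onSet y)).card := h
          rw [if_pos h, if_pos h']
        · have h' : ¬ ((S ∩ onSet y).card ≤ 32 * (v + 1) ∧ v ≤ (verts (S ∩ onSet y)).card) := h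
          rw [if_neg h, if_neg h']
      rw [if_pos hS, if_pos (by omega), mul_comm]
      exact mul_le_mul_of_nonneg_left hsel (sq_nonneg _)
    · rw [if_neg hS]
      refine mul_nonneg ?_ hnn
      split_ifs
      · exact sq_nonneg _
      · exact le_refl _
  have hupp : ∑ S : Finset (Edge n r), (if D < S.card then (hat p f S) ^ 2 else 0) *
        ex ρ (fun y => if Q (S ∩ onSet y) then 1 else 0) ≤ 2 ^ d * (1 - ρ / 2) ^ D := by
    have hτ : 0 ≤ 2 ^ d * (1 - ρ / 2) ^ D :=
      mul_nonneg (by positivity) (pow_nonneg (by linarith) _)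
    calc ∑ S : Finset (Edge n r), (if D < S.card then (hat p f S) ^ 2 else 0) *
        ex ρ (fun y => if Q (S ∩ onSet y) then 1 else 0)
        ≤ ∑ S : Finset (Edge n r), (hat p f S) ^ 2 * (2 ^ d * (1 - ρ / 2) ^ D) := by
          refine Finset.sum_le_sum fun S _ => ?_
          split_ifs with hS
          · refine mul_le_mul_of_nonneg_left ?_ (sq_nonneg _)
            have h1 : ex ρ (fun y : Edge n r → Bool => if Q (S ∩ onSet y) then (1 : ℝ) else 0) ≤
                ex ρ (fun y => if (S ∩ onSet y).card ≤ d then (1 : ℝ) else 0) := by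
              refine ex_mono hρ0 hρ1 fun y => ?_
              by_cases h2 : Q (S ∩ onSet y)
              · rw [if_pos h2, if_pos h2.1]
              · rw [if_neg h2]; split_ifs <;> norm_num
            refine h1.trans ((sel_tail S d ρ hρ0 hρ1).trans ?_)
            refine mul_le_mul_of_nonneg_left ?_ (by positivity)
            exact pow_le_pow_of_le_one (by linarith) (by linarith) hS.le
          · rw [zero_mul]; exact mul_nonneg (sq_nonneg _) hτ
      _ = (∑ S : Finset (Edge n r), (hat p f S) ^ 2) * (2 ^ d * (1 - ρ / 2) ^ D) := by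
          rw [Finset.sum_mul]
      _ ≤ 1 * (2 ^ d * (1 - ρ / 2) ^ D) := mul_le_mul_of_nonneg_right htot hτ
      _ = _ := one_mul _
  linarith

end Vale.Agent.FK
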